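import Mathlib

/-! Gradings defined by a degree function on a basis. -/

namespace Vale.Agent.P200

open Module

variable {F R ι : Type*} [Field F] [Ring R] [Algebra F R] (v : Basis ι F R) (deg : ι → ℕ)

/-- Span of the basis vectors of degree `d`. -/
def bgr (d : ℕ) : Submodule F R := Submodule.span F (v '' {i | deg i = d})

theorem mem_bgr (i : ι) : v i ∈ bgr v deg (deg i) := Submodule.subset_span ⟨i, rfl, rfl⟩

theorem mem_bgr' {i : ι} {d : ℕ} (h : deg i = d) : v i ∈ bgr v deg d := h ▸ mem_bgr v deg i

/-- The decomposition map. -/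
noncomputable def bgrDec : R →ₗ[F] DirectSum ℕ (fun d => bgr v deg d) :=
  v.constr F fun i => DirectSum.lof F ℕ (fun d => bgr v deg d) (deg i) ⟨v i, mem_bgr v deg i⟩

theorem bgrDec_of_mem {d : ℕ} {x : R} (hx : x ∈ bgr v deg d) :
    bgrDec v deg x = DirectSum.lof F ℕ (fun d => bgr v deg d) d ⟨x, hx⟩ := by
  induction hx using Submodule.span_induction with
  | mem x hx =>
    obtain ⟨i, hi, rfl⟩ := hx
    obtain rfl : deg i = d := hi
    simp [bgrDec]
  | zero => rw [map_zero]; exact (map_zero _).symm
  | add x y hx hy ihx ihy => rw [map_add, ihx, ihy, ← map_add]; rfl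
  | smul a x hx ih => rw [map_smul, ih, ← map_smul]; rfl

/-- The decomposition. -/
@[reducible] noncomputable def bgrDecomposition : DirectSum.Decomposition (bgr v deg) :=
  DirectSum.Decomposition.ofLinearMap (bgr v deg) (bgrDec v deg)
    (v.ext fun i => by simp [bgrDec])
    (by
      ext d x : 2
      simp only [LinearMap.comp_apply, LinearMap.id_comp]
      rw [DirectSum.lof_eq_of, DirectSum.coeLinearMap_of, bgrDec_of_mem v deg x.2]
      rfl)

theorem finrank_bgr (d : ℕ) (T : Finset ι) (hT : ∀ i, i ∈ T ↔ deg i = d) :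
    FiniteDimensional F (bgr v deg d) ∧ finrank F (bgr v deg d) = T.card := by
  have h1 : v '' {i | deg i = d} = Set.range (fun i : T => v i) := by
    ext x
    simp only [Set.mem_image, Set.mem_ofPred_eq, Set.mem_range, Subtype.exists, hT]
    constructor
    · rintro ⟨i, hi, rfl⟩; exact ⟨i, hi, rfl⟩
    · rintro ⟨i, hi, rfl⟩; exact ⟨i, hi, rfl⟩
  have h2 : LinearIndependent F (fun i : T => v i) :=
    v.linearIndependent.comp _ Subtype.val_injective
  unfold bgr
  rw [h1]
  exact ⟨FiniteDimensional.span_of_finite F (Set.finite_range _),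
    by rw [finrank_span_eq_card h2]; simp⟩

theorem bgr_gradedMonoid (h1 : (1 : R) ∈ bgr v deg 0) (G : Set R) (hG : Algebra.adjoin F G = ⊤)
    (hx : ∀ x ∈ G, ∃ δ, ∀ i, x * v i ∈ bgr v deg (δ + deg i)) :
    SetLike.GradedMonoid (bgr v deg) := by
  let := bgrDecomposition v deg
  let W : ℕ → Submodule F R := fun r =>
    { carrier := {x | ∀ d, ∀ y ∈ bgr v deg d, x * y ∈ bgr v deg (r + d)}
      add_mem' := fun {x x'} hx hx' d y hy => by
        rw [add_mul]; exact Submodule.add_mem _ (hx d y hy) (hx' d y hy)
      zero_mem' := fun d y _ => by rw [zero_mul]; exact Submodule.zero_mem _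
      smul_mem' := fun a {x} hx d y hy => by
        rw [smul_mul_assoc]; exact Submodule.smul_mem _ _ (hx d y hy) }
  have hW1 : ∀ r, W r ≤ bgr v deg r := fun r x hx => by simpa using hx 0 1 h1
  have hWmul : ∀ r r', ∀ x ∈ W r, ∀ x' ∈ W r', x * x' ∈ W (r + r') := by
    intro r r' x hx x' hx' d y hy
    rw [mul_assoc, add_assoc]
    exact hx _ _ (hx' d y hy)
  have hWG : ∀ x ∈ G, ∃ δ, x ∈ W δ := by
    intro x hxG
    obtain ⟨δ, hδ⟩ := hx x hxG
    refine ⟨δ, fun d y hy => ?_⟩
    induction hy using Submodule.span_induction with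
    | mem y hy =>
      obtain ⟨i, hi, rfl⟩ := hy
      obtain rfl : deg i = d := hi
      exact hδ i
    | zero => simp
    | add y y' _ _ h h' => rw [mul_add]; exact Submodule.add_mem _ h h'
    | smul a y _ h => rw [mul_smul_comm]; exact Submodule.smul_mem _ _ h
  have hW0 : (1 : R) ∈ W 0 := fun d y hy => by simpa using hy
  have htop : ∀ x : R, x ∈ ⨆ r, W r := by
    intro x
    have hx : x ∈ Algebra.adjoin F G := hG ▸ Algebra.mem_top
    induction hx using Algebra.adjoin_induction with
    | mem x hx => obtain ⟨δ, hδ⟩ := hWG x hx; exact Submodule.mem_iSup_of_mem δ hδ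
    | algebraMap a =>
      rw [Algebra.algebraMap_eq_smul_one]
      exact Submodule.smul_mem _ _ (Submodule.mem_iSup_of_mem 0 hW0)
    | add x y _ _ hx hy => exact Submodule.add_mem _ hx hy
    | mul x y hx' hy' hx hy =>
      clear hx' hy'
      induction hx using Submodule.iSup_induction' with
      | mem r x hx =>
        induction hy using Submodule.iSup_induction' with
        | mem r' y hy => exact Submodule.mem_iSup_of_mem _ (hWmul r r' x hx y hy)
        | zero => simp
        | add y y' _ _ h h' => rw [mul_add]; exact Submodule.add_mem _ h h'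
      | zero => simp
      | add x x' _ _ h h' => rw [add_mul]; exact Submodule.add_mem _ h h'
  have hdec : ∀ x : R, ∀ r, (DirectSum.decompose (bgr v deg) x r : R) ∈ W r := by
    intro x r
    have hx := htop x
    induction hx using Submodule.iSup_induction' with
    | mem i x hx =>
      by_cases hi : i = r
      · subst hi
        rw [DirectSum.decompose_of_mem_same _ (hW1 i hx)]
        exact hx
      · rw [DirectSum.decompose_of_mem_ne _ (hW1 i hx) hi]
        exact Submodule.zero_mem _
    | zero => simp
    | add x y _ _ hx hy =>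
      rw [DirectSum.decompose_add, DirectSum.add_apply, Submodule.coe_add]
      exact Submodule.add_mem _ hx hy
  exact
    { one_mem := h1
      mul_mem := fun r d x y hx hy => by
        have := hdec x r
        rw [DirectSum.decompose_of_mem_same _ hx] at this
        exact this d y hy }

end Vale.Agent.P200
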