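import Mathlib

/-! Finite difference lemmas used for Hilbert functions. -/

namespace Vale.Agent.P200

open Filter

/-- If the `k`-th difference is eventually nonpositive then `h` is `o(d^k)` from above. -/
theorem le_eps_of_fwdDiff_iter (k : ℕ) : ∀ (h : ℕ → ℤ),
    (∀ᶠ d in atTop, (fwdDiff 1)^[k] h d ≤ 0) →
    ∀ ε : ℝ, 0 < ε → ∀ᶠ d in atTop, (h d : ℝ) ≤ ε * ((d : ℝ) + 1) ^ k := by
  induction k with
  | zero =>
    intro h hh ε hε
    filter_upwards [hh] with d hd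
    simp only [Function.iterate_zero, id_eq] at hd
    have : (h d : ℝ) ≤ 0 := by exact_mod_cast hd
    simp only [pow_zero, mul_one]
    linarith
  | succ k ih =>
    intro h hh ε hε
    have h1 := ih (fwdDiff 1 h) (by simpa [Function.iterate_succ_apply] using hh) (ε / 2)
      (by positivity)
    obtain ⟨d₀, hd₀⟩ := eventually_atTop.mp h1
    have key : ∀ m : ℕ, (h (d₀ + m) : ℝ) ≤ h d₀ + m * (ε / 2 * (((d₀ + m : ℕ) : ℝ) + 1) ^ k) := by
      intro m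
      induction m with
      | zero => simp
      | succ m ihm =>
        have h2 := hd₀ (d₀ + m) (Nat.le_add_right _ _)
        simp only [fwdDiff, Int.cast_sub] at h2
        have h3 : (((d₀ + m : ℕ) : ℝ) + 1) ^ k ≤ (((d₀ + (m + 1) : ℕ) : ℝ) + 1) ^ k := by
          apply pow_le_pow_left₀ (by positivity)
          push_cast; linarith
        have h4 : ε / 2 * (((d₀ + m : ℕ) : ℝ) + 1) ^ k ≤
            ε / 2 * (((d₀ + (m + 1) : ℕ) : ℝ) + 1) ^ k :=
          mul_le_mul_of_nonneg_left h3 (by positivity)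
        have h5 : (m : ℝ) * (ε / 2 * (((d₀ + m : ℕ) : ℝ) + 1) ^ k) ≤
            (m : ℝ) * (ε / 2 * (((d₀ + (m + 1) : ℕ) : ℝ) + 1) ^ k) :=
          mul_le_mul_of_nonneg_left h4 (by positivity)
        have h6 : d₀ + (m + 1) = d₀ + m + 1 := by ring
        rw [h6] at h4 h5 ⊢
        push_cast at h2 h4 h5 ihm ⊢
        linarith
    obtain ⟨N, hN⟩ := exists_nat_ge (2 * (h d₀ : ℝ) / ε)
    refine eventually_atTop.mpr ⟨max d₀ N, fun d hd => ?_⟩
    obtain ⟨m, rfl⟩ := Nat.exists_eq_add_of_le (le_of_max_le_left hd)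
    have hN' : (N : ℝ) ≤ ((d₀ + m : ℕ) : ℝ) := by exact_mod_cast le_of_max_le_right hd
    have h7 := key m
    set x : ℝ := ((d₀ + m : ℕ) : ℝ) with hx
    have hx0 : 0 ≤ x := by positivity
    have hmx : (m : ℝ) ≤ x := by rw [hx]; push_cast; linarith [Nat.cast_nonneg (α := ℝ) d₀]
    have hp : 1 ≤ (x + 1) ^ k := one_le_pow₀ (by linarith)
    have h8 : (h d₀ : ℝ) ≤ ε / 2 * (x + 1) := by
      have : 2 * (h d₀ : ℝ) / ε ≤ x := hN.trans hN'
      rw [div_le_iff₀ hε] at this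
      nlinarith
    have h9 : ε / 2 * (x + 1) ≤ ε / 2 * (x + 1) * (x + 1) ^ k :=
      le_mul_of_one_le_right (by positivity) hp
    have h10 : (m : ℝ) * (ε / 2 * (x + 1) ^ k) ≤ (x + 1) * (ε / 2 * (x + 1) ^ k) :=
      mul_le_mul_of_nonneg_right (by linarith) (by positivity)
    rw [pow_succ]
    nlinarith

theorem fwdDiff_iter_eventually_const {k : ℕ} {h : ℕ → ℤ}
    (h0 : ∀ᶠ d in atTop, (fwdDiff 1)^[k + 1] h d = 0) :
    ∃ d₀ : ℕ, ∀ d, d₀ ≤ d → (fwdDiff 1)^[k] h d = (fwdDiff 1)^[k] h d₀ := by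
  obtain ⟨d₀, hd₀⟩ := eventually_atTop.mp h0
  refine ⟨d₀, fun d hd => ?_⟩
  induction d, hd using Nat.le_induction with
  | base => rfl
  | succ d hd ih =>
    have := hd₀ d hd
    rw [Function.iterate_succ_apply'] at this
    simp only [fwdDiff] at this
    linarith

theorem dvd_fwdDiff_iter {N : ℤ} (k : ℕ) : ∀ {h : ℕ → ℤ}, (∀ d, N ∣ h d) →
    ∀ d, N ∣ (fwdDiff 1)^[k] h d := by
  induction k with
  | zero => intro h hh d; simpa using hh d
  | succ k ih =>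
    intro h hh d
    rw [Function.iterate_succ_apply]
    exact ih (fun d => by simp only [fwdDiff]; exact dvd_sub (hh _) (hh _)) d

/-- Integrality plus growth forces the top difference to be at least `N`. -/
theorem le_fwdDiff_iter {k r : ℕ} {h : ℕ → ℤ} {N : ℤ}
    (h0 : ∀ᶠ d in atTop, (fwdDiff 1)^[k + 1] h d = 0)
    (hN : ∀ d, N ∣ h d) (hlow : ∀ s : ℕ, (((s + k).choose k : ℕ) : ℤ) ≤ h (r + 2 * s)) :
    ∀ᶠ d in atTop, N ≤ (fwdDiff 1)^[k] h d := by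
  obtain ⟨d₀, hd₀⟩ := fwdDiff_iter_eventually_const h0
  have hpos : 0 < (fwdDiff 1)^[k] h d₀ := by
    by_contra hle
    push Not at hle
    have h1 : ∀ᶠ d in atTop, (fwdDiff 1)^[k] h d ≤ 0 :=
      eventually_atTop.mpr ⟨d₀, fun d hd => by rw [hd₀ d hd]; exact hle⟩
    have hε : (0 : ℝ) < 1 / (2 * (3 ^ k * k.factorial)) := by positivity
    obtain ⟨d₁, hd₁⟩ := eventually_atTop.mp (le_eps_of_fwdDiff_iter k h h1 _ hε)
    set s := max d₁ r with hs
    have h2 := hd₁ (r + 2 * s) (by omega)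
    have h3 : (((s + k).choose k : ℕ) : ℝ) ≤ (h (r + 2 * s) : ℝ) := by exact_mod_cast hlow s
    have h4 : (((s + k + 1 - k : ℕ) : ℝ)) ^ k / (k.factorial : ℝ) ≤ ((s + k).choose k : ℕ) :=
      Nat.pow_le_choose k (s + k)
    have h5 : s + k + 1 - k = s + 1 := by omega
    rw [h5] at h4
    have h6 : (((r + 2 * s : ℕ) : ℝ) + 1) ^ k ≤ (3 * ((s + 1 : ℕ) : ℝ)) ^ k := by
      apply pow_le_pow_left₀ (by positivity)
      have : (r : ℝ) ≤ s := by exact_mod_cast le_max_right d₁ r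
      push_cast; linarith [Nat.cast_nonneg (α := ℝ) s]
    have h7 : (0 : ℝ) < ((s + 1 : ℕ) : ℝ) ^ k := by positivity
    have h8 : (0 : ℝ) < k.factorial := by positivity
    have h9 : (0 : ℝ) < 3 ^ k := by positivity
    have h10 : 1 / (2 * (3 ^ k * (k.factorial : ℝ))) * (3 * ((s + 1 : ℕ) : ℝ)) ^ k =
        ((s + 1 : ℕ) : ℝ) ^ k / (k.factorial : ℝ) / 2 := by
      rw [mul_pow]; field_simp
    have h11 := mul_le_mul_of_nonneg_left h6 hε.le
    rw [h10] at h11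
    have h12 : (0 : ℝ) < ((s + 1 : ℕ) : ℝ) ^ k / (k.factorial : ℝ) := by positivity
    linarith
  refine eventually_atTop.mpr ⟨d₀, fun d hd => ?_⟩
  rw [hd₀ d hd]
  exact Int.le_of_dvd hpos (dvd_fwdDiff_iter k hN d₀)

theorem fwdDiff_iter_choose_shift (k : ℕ) (N : ℤ) (d : ℕ) :
    (fwdDiff 1)^[k] (fun d : ℕ => N * (((d + k).choose k : ℕ) : ℤ)) d = N := by
  have h1 : (fun d : ℕ => N * (((d + k).choose k : ℕ) : ℤ)) =
      N • (fun d : ℕ => (fun x : ℕ => ((x.choose (k + 0) : ℕ) : ℤ)) (d + k)) := by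
    ext d; simp
  have h2 := fwdDiff_iter_comp_add 1 (fun x : ℕ => ((x.choose (k + 0) : ℕ) : ℤ)) k k d
  rw [fwdDiff_iter_choose] at h2
  rw [h1, fwdDiff_iter_const_smul, Pi.smul_apply, h2]
  simp

/-- The numerical contradiction behind the domain property. -/
theorem numeric_contra {k r₁ r₂ r : ℕ} {N : ℤ} (hNpos : 0 < N) {h₁ h₂ : ℕ → ℤ}
    (a₁ : ∀ᶠ d in atTop, (fwdDiff 1)^[k + 1] h₁ d = 0)
    (a₂ : ∀ᶠ d in atTop, (fwdDiff 1)^[k + 1] h₂ d = 0)
    (b₁ : ∀ d, N ∣ h₁ d) (b₂ : ∀ d, N ∣ h₂ d)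
    (c₁ : ∀ s : ℕ, (((s + k).choose k : ℕ) : ℤ) ≤ h₁ (r₁ + 2 * s))
    (c₂ : ∀ s : ℕ, (((s + k).choose k : ℕ) : ℤ) ≤ h₂ (r₂ + 2 * s))
    (hsum : ∀ d, h₁ d + h₂ (d + r) = N * (((d + k).choose k : ℕ) : ℤ)) : False := by
  obtain ⟨d₁, e₁⟩ := eventually_atTop.mp (le_fwdDiff_iter a₁ b₁ c₁)
  obtain ⟨d₂, e₂⟩ := eventually_atTop.mp (le_fwdDiff_iter a₂ b₂ c₂)
  have h1 := e₁ (max d₁ d₂) (le_max_left _ _)
  have h2 := e₂ (max d₁ d₂ + r) (by omega)
  have h3 := fwdDiff_iter_choose_shift k N (max d₁ d₂)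
  have h4 : (fun d : ℕ => N * (((d + k).choose k : ℕ) : ℤ)) = h₁ + fun d => h₂ (d + r) := by
    ext d; simp [hsum]
  rw [h4, fwdDiff_iter_add, Pi.add_apply, fwdDiff_iter_comp_add] at h3
  linarith

/-- Telescoping form of the vanishing of an Euler characteristic. -/
theorem fwdDiff_iter_eq_zero_of_telescope (c : ℕ) (h : ℕ → ℤ) (d : ℕ) (u : ℕ → ℤ)
    (hu : ∀ k, k ≤ c → (c.choose k : ℤ) * h (d + k) = u (k + 1) + u k)
    (h0 : u 0 = 0) (h1 : u (c + 1) = 0) : (fwdDiff 1)^[c] h d = 0 := by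
  rw [fwdDiff_iter_eq_sum_shift]
  have key : ∀ m, m ≤ c + 1 → ∑ k ∈ Finset.range m, (-1 : ℤ) ^ (c + k) * (u (k + 1) + u k) =
      (-1) ^ (c + m + 1) * u m := by
    intro m
    induction m with
    | zero => simp [h0]
    | succ m ih =>
      intro hm
      rw [Finset.sum_range_succ, ih (by omega)]
      ring
  have h2 := key (c + 1) le_rfl
  rw [h1, mul_zero] at h2
  rw [← h2]
  refine Finset.sum_congr rfl fun k hk => ?_
  have hk' : k ≤ c := Nat.lt_succ_iff.mp (Finset.mem_range.mp hk)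
  rw [← hu k hk']
  have : (-1 : ℤ) ^ (c + k) = (-1) ^ (c - k) := by
    obtain ⟨j, rfl⟩ := Nat.exists_eq_add_of_le hk'
    rw [show k + j + k = j + 2 * k by ring, show k + j - k = j by omega, pow_add, pow_mul]
    simp
  rw [this]
  simp [mul_assoc]

end Vale.Agent.P200
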