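import Mathlib
import Vale.Agent.P200.Diff

/-! The complex `Hom_K(A, M)` attached to a graded left ideal `M` of a Clifford type ring. -/

namespace Vale.Agent.P200

open Filter Module MvPolynomial

/-- Data extracted from an Artinian complete intersection of `c` quadrics. -/
structure QuadData (K S : Type*) [Field K] [CommRing S] [Algebra K S]
    (𝒮 : ℕ → Submodule K S) [GradedAlgebra 𝒮] (c : ℕ) where
  z : Fin c → S
  b : Fin c → Fin c → Fin c → K
  A : Ideal S
  Ak : Fin c → Ideal S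
  z_mem : ∀ j, z j ∈ 𝒮 1
  A_hom : ∀ s ∈ A, ∀ j, GradedAlgebra.proj 𝒮 j s ∈ A
  g_mem_Ak : ∀ k k', k' ≠ k → (∑ i, ∑ j, b k' i j • (z i * z j)) ∈ Ak k
  Ak_le : ∀ k, Ak k ≤ A
  g_mem : ∀ k, (∑ i, ∑ j, b k i j • (z i * z j)) ∈ A
  A_le : ∀ k, ∀ s ∈ A, ∃ r, s - (∑ i, ∑ j, b k i j • (z i * z j)) * r ∈ Ak k
  reg : ∀ k s, (∑ i, ∑ j, b k i j • (z i * z j)) * s ∈ Ak k → s ∈ Ak k
  fin : ∀ j, FiniteDimensional K (S ⧸ (A.restrictScalars K).comap (GradedAlgebra.proj 𝒮 j))
  dim : ∀ j, finrank K (S ⧸ (A.restrictScalars K).comap (GradedAlgebra.proj 𝒮 j)) = c.choose j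

section Y

variable {K F S B : Type*} [Field K] [Field F] [Algebra K F] [AddCommGroup S] [Module K S]
  [AddCommGroup B] [Module K B] [Module F B] [IsScalarTower K F B] [SMulCommClass K F B]

/-- Maps vanishing on `W` with values in `N`. -/
def homSp (W : Submodule K S) (N : Submodule F B) : Submodule F (S →ₗ[K] B) where
  carrier := {φ | (∀ s ∈ W, φ s = 0) ∧ ∀ s, φ s ∈ N}
  add_mem' := fun {φ ψ} hφ hψ => ⟨fun s hs => by simp [hφ.1 s hs, hψ.1 s hs],
    fun s => N.add_mem (hφ.2 s) (hψ.2 s)⟩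
  zero_mem' := ⟨fun _ _ => rfl, fun _ => N.zero_mem⟩
  smul_mem' := fun a {φ} hφ => ⟨fun s hs => by simp [hφ.1 s hs], fun s => N.smul_mem a (hφ.2 s)⟩

omit [Algebra K F] [IsScalarTower K F B] in
theorem mem_homSp {W : Submodule K S} {N : Submodule F B} {φ : S →ₗ[K] B} :
    φ ∈ homSp W N ↔ (∀ s ∈ W, φ s = 0) ∧ ∀ s, φ s ∈ N := Iff.rfl

/-- The parametrisation of `homSp`. -/
def homSpMap (W : Submodule K S) (N : Submodule F B) :
    ((S ⧸ W) →ₗ[K] N) →ₗ[F] (S →ₗ[K] B) where
  toFun ψ := (N.subtype.restrictScalars K) ∘ₗ ψ ∘ₗ W.mkQ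
  map_add' ψ ψ' := by ext s; simp
  map_smul' a ψ := by ext s; simp

theorem homSpMap_injective (W : Submodule K S) (N : Submodule F B) :
    Function.Injective (homSpMap W N) := by
  intro ψ ψ' h
  ext s
  have := LinearMap.congr_fun h s
  simpa [homSpMap] using this

theorem range_homSpMap (W : Submodule K S) (N : Submodule F B) :
    LinearMap.range (homSpMap W N) = homSp W N := by
  ext φ
  constructor
  · rintro ⟨ψ, rfl⟩
    refine ⟨fun s hs => ?_, fun s => ?_⟩
    · simp [homSpMap, (Submodule.Quotient.mk_eq_zero W).mpr hs]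
    · simp [homSpMap]
  · rintro ⟨h1, h2⟩
    let φ' : S →ₗ[K] N :=
      { toFun := fun s => ⟨φ s, h2 s⟩
        map_add' := fun s t => by ext; simp
        map_smul' := fun a s => by ext; simp }
    refine ⟨W.liftQ φ' fun s hs => ?_, ?_⟩
    · ext; simp [φ', h1 s hs]
    · ext s; rfl

theorem finite_homSp (W : Submodule K S) (N : Submodule F B) [FiniteDimensional K (S ⧸ W)]
    [FiniteDimensional F N] : FiniteDimensional F (homSp W N) := by
  rw [← range_homSpMap]
  have : FiniteDimensional F ((S ⧸ W) →ₗ[K] N) :=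
    Module.Finite.equiv ((Module.finBasis K (S ⧸ W)).constr F)
  infer_instance

theorem finrank_homSp (W : Submodule K S) (N : Submodule F B) [FiniteDimensional K (S ⧸ W)]
    [FiniteDimensional F N] :
    finrank F (homSp W N) = finrank K (S ⧸ W) * finrank F N := by
  rw [← range_homSpMap, LinearMap.finrank_range_of_inj (homSpMap_injective W N),
    ← ((Module.finBasis K (S ⧸ W)).constr F).finrank_eq, Module.finrank_pi_fintype]
  simp

end Y

theorem sum_sum_eq_zero_of_alt {B : Type*} [AddCommGroup B] {c : ℕ} (u : Fin c → Fin c → B)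
    (h1 : ∀ i, u i i = 0) (h2 : ∀ i j, u i j + u j i = 0) : ∑ i, ∑ j, u i j = 0 := by
  rw [← Finset.sum_product']
  refine Finset.sum_involution (fun p _ => p.swap) ?_ ?_ ?_ ?_
  · intro p _; simpa using h2 p.1 p.2
  · intro p _ hp heq
    apply hp
    have : p.2 = p.1 := congrArg Prod.fst heq
    rw [this]; exact h1 _
  · intro p _; simp
  · intro p _; simp

section Main

variable {K F S B : Type*} [Field K] [Field F] [Algebra K F] [CommRing S] [Algebra K S]
  {𝒮 : ℕ → Submodule K S} [GradedAlgebra 𝒮] {c : ℕ}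
  [Ring B] [Algebra (MvPolynomial (Fin c) F) B] [Algebra F B] [Algebra K B]
  [IsScalarTower K F B] [IsScalarTower F (MvPolynomial (Fin c) F) B]
  [SMulCommClass K (MvPolynomial (Fin c) F) B] [SMulCommClass K F B]

/-- The differential. -/
def dT (F : Type*) [Field F] [Algebra (MvPolynomial (Fin c) F) B]
    [SMulCommClass K (MvPolynomial (Fin c) F) B] (z : Fin c → S) (e : Fin c → B) :
    (S →ₗ[K] B) →ₗ[MvPolynomial (Fin c) F] (S →ₗ[K] B) where
  toFun φ := ∑ i, (LinearMap.mulLeft K (e i)) ∘ₗ φ ∘ₗ (LinearMap.mulLeft K (z i))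
  map_add' φ ψ := by ext s; simp [Finset.sum_add_distrib, mul_add]
  map_smul' a φ := by ext s; simp [Finset.smul_sum]

omit [Algebra K F] [Algebra F B] [IsScalarTower K F B]
  [IsScalarTower F (MvPolynomial (Fin c) F) B] [SMulCommClass K F B] in
theorem dT_apply (z : Fin c → S) (e : Fin c → B) (φ : S →ₗ[K] B) (s : S) :
    dT F z e φ s = ∑ i, e i * φ (z i * s) := by
  simp [dT]

/-- Clifford relations. -/
structure CliffRel (F : Type*) [Field F] [Algebra (MvPolynomial (Fin c) F) B]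
    (b : Fin c → Fin c → Fin c → K) (e : Fin c → B) : Prop where
  sq : ∀ i, e i * e i = ∑ k, b k i i • algebraMap (MvPolynomial (Fin c) F) B (X k)
  anti : ∀ i j, e i * e j + e j * e i =
    ∑ k, b k i j • algebraMap (MvPolynomial (Fin c) F) B (X k) +
      ∑ k, b k j i • algebraMap (MvPolynomial (Fin c) F) B (X k)

omit [Algebra K F] [Algebra F B] [IsScalarTower K F B]
  [IsScalarTower F (MvPolynomial (Fin c) F) B] [SMulCommClass K F B] in
theorem dT_dT (z : Fin c → S) {b : Fin c → Fin c → Fin c → K} {e : Fin c → B}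
    (he : CliffRel F b e) (φ : S →ₗ[K] B) (s : S) :
    dT F z e (dT F z e φ) s = ∑ k, (X k : MvPolynomial (Fin c) F) •
      φ ((∑ i, ∑ j, b k i j • (z i * z j)) * s) := by
  have h0 := sum_sum_eq_zero_of_alt (fun i j => (e i * e j -
    ∑ k, b k i j • algebraMap (MvPolynomial (Fin c) F) B (X k)) * φ (z i * z j * s))
    (fun i => by rw [he.sq i, sub_self, zero_mul])
    (fun i j => by
      rw [mul_comm (z j) (z i), ← add_mul]
      have := he.anti i j
      rw [show e i * e j - ∑ k, b k i j • algebraMap (MvPolynomial (Fin c) F) B (X k) +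
        (e j * e i - ∑ k, b k j i • algebraMap (MvPolynomial (Fin c) F) B (X k)) =
        (e i * e j + e j * e i) - (∑ k, b k i j • algebraMap (MvPolynomial (Fin c) F) B (X k) +
          ∑ k, b k j i • algebraMap (MvPolynomial (Fin c) F) B (X k)) by abel, this, sub_self,
        zero_mul])
  simp only [sub_mul, Finset.sum_sub_distrib, sub_eq_zero] at h0
  have h1 : dT F z e (dT F z e φ) s = ∑ i, ∑ j, e i * e j * φ (z i * z j * s) := by
    simp only [dT_apply, Finset.mul_sum, mul_assoc]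
    refine Finset.sum_congr rfl fun i _ => Finset.sum_congr rfl fun j _ => ?_
    rw [mul_left_comm (z j)]
  rw [h1, h0]
  simp only [Finset.sum_mul, map_sum, Finset.smul_sum, smul_mul_assoc, map_smul,
    ← Algebra.smul_def]
  rw [Finset.sum_comm]
  refine (Finset.sum_congr rfl fun j _ => Finset.sum_comm).trans ?_
  rw [Finset.sum_comm]
  refine Finset.sum_congr rfl fun k _ => ?_
  rw [Finset.sum_comm]
  refine Finset.sum_congr rfl fun i _ => Finset.sum_congr rfl fun j _ => ?_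
  rw [smul_comm]

omit [Algebra K F] [Algebra F B] [IsScalarTower K F B]
  [IsScalarTower F (MvPolynomial (Fin c) F) B] [SMulCommClass K F B] in
/-- Each central parameter kills the homology. -/
theorem kill (q : QuadData K S 𝒮 c) {e : Fin c → B} (he : CliffRel F q.b e) (M : Ideal B)
    (k : Fin c) (φ : S →ₗ[K] B) (h1 : ∀ s ∈ q.A, φ s = 0) (h2 : ∀ s, φ s ∈ M)
    (h3 : dT F q.z e φ = 0) :
    ∃ χ : S →ₗ[K] B, (∀ s ∈ q.A, χ s = 0) ∧ (∀ s, χ s ∈ M) ∧
      dT F q.z e χ = (X k : MvPolynomial (Fin c) F) • φ := by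
  set g : S := ∑ i, ∑ j, q.b k i j • (q.z i * q.z j) with hg
  let W : Submodule K S := (q.Ak k).restrictScalars K
  let μ : (S ⧸ W) →ₗ[K] (S ⧸ W) := W.mapQ W (LinearMap.mulLeft K g)
    (fun s hs => (q.Ak k).mul_mem_left g hs)
  have hμ : LinearMap.ker μ = ⊥ := by
    rw [LinearMap.ker_eq_bot']
    intro x hx
    obtain ⟨s, rfl⟩ := W.mkQ_surjective x
    have : g * s ∈ q.Ak k := by
      have h : W.mkQ (g * s) = 0 := hx
      exact (Submodule.Quotient.mk_eq_zero W).mp h
    exact (Submodule.Quotient.mk_eq_zero W).mpr (q.reg k s this)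
  obtain ⟨ν, hν⟩ := μ.exists_leftInverse_of_injective hμ
  let φ' : (S ⧸ W) →ₗ[K] B := W.liftQ φ (fun s hs => h1 s (q.Ak_le k hs))
  let ψ : S →ₗ[K] B := φ' ∘ₗ ν ∘ₗ W.mkQ
  have hψ1 : ∀ s, ψ (g * s) = φ s := by
    intro s
    have h : ν (μ (W.mkQ s)) = W.mkQ s := LinearMap.congr_fun hν (W.mkQ s)
    have h' : W.mkQ (g * s) = μ (W.mkQ s) := rfl
    change φ' (ν (W.mkQ (g * s))) = φ s
    rw [h', h]
    rfl
  have hψ2 : ∀ s ∈ q.Ak k, ψ s = 0 := by
    intro s hs
    change φ' (ν (W.mkQ s)) = 0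
    have : W.mkQ s = 0 := (Submodule.Quotient.mk_eq_zero W).mpr hs
    rw [this, map_zero, map_zero]
  have hψ3 : ∀ s, ψ s ∈ M := by
    intro s
    change φ' (ν (W.mkQ s)) ∈ M
    obtain ⟨t, ht⟩ := W.mkQ_surjective (ν (W.mkQ s))
    rw [← ht]
    exact h2 t
  refine ⟨dT F q.z e ψ, ?_, ?_, ?_⟩
  · intro s hs
    obtain ⟨r, hr⟩ := q.A_le k s hs
    rw [← hg] at hr
    have h4 : dT F q.z e ψ (s - g * r) = 0 := by
      rw [dT_apply]
      exact Finset.sum_eq_zero fun i _ => by rw [hψ2 _ ((q.Ak k).mul_mem_left _ hr), mul_zero]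
    have h5 : dT F q.z e ψ (g * r) = 0 := by
      have := LinearMap.congr_fun h3 r
      rw [dT_apply] at this ⊢
      simp only [mul_left_comm _ g, hψ1]
      exact this
    rw [map_sub, h5, sub_zero] at h4
    exact h4
  · intro s
    rw [dT_apply]
    exact M.sum_mem fun i _ => M.mul_mem_left _ (hψ3 _)
  · ext s
    rw [dT_dT q.z he, Finset.sum_eq_single k]
    · rw [← hg, hψ1]; rfl
    · intro k' _ hk'
      rw [hψ2 _ ((q.Ak k).mul_mem_right _ (q.g_mem_Ak k k' hk')), smul_zero]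
    · simp

end Main

end Vale.Agent.P200
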