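import Mathlib
import Vale.Agent.P200.Exact

/-! Eventual exactness and the Euler characteristic. -/

namespace Vale.Agent.P200

open Filter Module MvPolynomial

theorem finrank_map_add_finrank_inf_ker {F V V' : Type*} [DivisionRing F] [AddCommGroup V]
    [Module F V] [AddCommGroup V'] [Module F V'] (T : V →ₗ[F] V') (Y : Submodule F V)
    [FiniteDimensional F Y] :
    finrank F (Y.map T) + finrank F (Y ⊓ LinearMap.ker T : Submodule F V) = finrank F Y := by
  have h := LinearMap.finrank_range_add_finrank_ker (T.domRestrict Y)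
  rw [LinearMap.range_domRestrict, LinearMap.ker_domRestrict,
    ← Submodule.finrank_map_subtype_eq, Submodule.map_comap_subtype] at h
  exact h

section Bounded

variable {F B : Type*} [Field F] [Ring B] [Algebra F B] (𝒢 : ℕ → Submodule F B)
  [GradedAlgebra 𝒢]

theorem eventually_proj_eq_zero (y : B) : ∀ᶠ d in atTop, GradedAlgebra.proj 𝒢 d y = 0 := by
  classical
  refine eventually_atTop.mpr ⟨(DirectSum.decompose 𝒢 y).support.sup id + 1, fun d hd => ?_⟩
  by_contra h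
  have h1 := (GradedAlgebra.mem_support_iff 𝒢 y d).mpr h
  have h2 : d ≤ (DirectSum.decompose 𝒢 y).support.sup id := Finset.le_sup (f := id) h1
  omega

theorem proj_mem (d : ℕ) (y : B) : GradedAlgebra.proj 𝒢 d y ∈ 𝒢 d := by
  rw [GradedAlgebra.proj_apply]; exact SetLike.coe_mem _

theorem proj_of_mem {d : ℕ} {y : B} (h : y ∈ 𝒢 d) : GradedAlgebra.proj 𝒢 d y = y := by
  rw [GradedAlgebra.proj_apply]; exact DirectSum.decompose_of_mem_same 𝒢 h

theorem proj_of_mem_ne {d d' : ℕ} {y : B} (h : y ∈ 𝒢 d) (hd : d ≠ d') :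
    GradedAlgebra.proj 𝒢 d' y = 0 := by
  rw [GradedAlgebra.proj_apply]; exact DirectSum.decompose_of_mem_ne 𝒢 h hd

theorem proj_mul_left {i d : ℕ} {a : B} (ha : a ∈ 𝒢 i) (y : B) :
    GradedAlgebra.proj 𝒢 (i + d) (a * y) = a * GradedAlgebra.proj 𝒢 d y := by
  simp only [GradedAlgebra.proj_apply]
  exact DirectSum.coe_decompose_mul_add_of_left_mem 𝒢 ha

theorem proj_mul_right {i d : ℕ} {a : B} (ha : a ∈ 𝒢 i) (y : B) :
    GradedAlgebra.proj 𝒢 (d + i) (y * a) = GradedAlgebra.proj 𝒢 d y * a := by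
  simp only [GradedAlgebra.proj_apply]
  exact DirectSum.coe_decompose_mul_add_of_right_mem 𝒢 ha

theorem proj_mul_left_lt {i d : ℕ} {a : B} (ha : a ∈ 𝒢 i) (y : B) (h : d < i) :
    GradedAlgebra.proj 𝒢 d (a * y) = 0 := by
  simp only [GradedAlgebra.proj_apply]
  exact DirectSum.coe_decompose_mul_of_left_mem_of_not_le 𝒢 ha (by omega)

theorem proj_mul_right_lt {i d : ℕ} {a : B} (ha : a ∈ 𝒢 i) (y : B) (h : d < i) :
    GradedAlgebra.proj 𝒢 d (y * a) = 0 := by
  simp only [GradedAlgebra.proj_apply]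
  exact DirectSum.coe_decompose_mul_of_right_mem_of_not_le 𝒢 ha (by omega)

theorem proj_proj (d : ℕ) (y : B) :
    GradedAlgebra.proj 𝒢 d (GradedAlgebra.proj 𝒢 d y) = GradedAlgebra.proj 𝒢 d y :=
  proj_of_mem 𝒢 (proj_mem 𝒢 d y)

theorem eq_zero_of_proj (y : B) (h : ∀ d, GradedAlgebra.proj 𝒢 d y = 0) : y = 0 := by
  classical
  rw [← DirectSum.sum_support_decompose 𝒢 y]
  exact Finset.sum_eq_zero fun d _ => h d

end Bounded

section Main

variable {K F S B : Type*} [Field K] [Field F] [Algebra K F] [CommRing S] [Algebra K S]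
  {𝒮 : ℕ → Submodule K S} [GradedAlgebra 𝒮] {c : ℕ}
  [Ring B] [Algebra (MvPolynomial (Fin c) F) B] [Algebra F B] [Algebra K B]
  [IsScalarTower K F B] [IsScalarTower F (MvPolynomial (Fin c) F) B]
  [SMulCommClass K (MvPolynomial (Fin c) F) B] [SMulCommClass K F B]
  [Module.Finite (MvPolynomial (Fin c) F) B]
  (𝒢 : ℕ → Submodule F B) [GradedAlgebra 𝒢]

/-- The subspace of elements whose degree `j` part lies in `A`. -/
abbrev QuadData.W (q : QuadData K S 𝒮 c) (j : ℕ) : Submodule K S :=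
  (q.A.restrictScalars K).comap (GradedAlgebra.proj 𝒮 j)

theorem QuadData.mem_W (q : QuadData K S 𝒮 c) {j : ℕ} {s : S} :
    s ∈ q.W j ↔ GradedAlgebra.proj 𝒮 j s ∈ q.A := Iff.rfl

theorem QuadData.z_mul_mem_W (q : QuadData K S 𝒮 c) {j : ℕ} {s : S} (hs : s ∈ q.W j)
    (i : Fin c) : q.z i * s ∈ q.W (j + 1) := by
  rw [q.mem_W, add_comm, proj_mul_left 𝒮 (q.z_mem i)]
  exact q.A.mul_mem_left _ hs

theorem QuadData.z_mul_mem_W_zero (q : QuadData K S 𝒮 c) (s : S)
    (i : Fin c) : q.z i * s ∈ q.W 0 := by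
  rw [q.mem_W, proj_mul_left_lt 𝒮 (q.z_mem i) _ one_pos]
  exact q.A.zero_mem

theorem QuadData.sub_proj_mem_W (q : QuadData K S 𝒮 c) (j : ℕ) (s : S) :
    s - GradedAlgebra.proj 𝒮 j s ∈ q.W j := by
  rw [q.mem_W, map_sub, proj_proj, sub_self]
  exact q.A.zero_mem

omit [Algebra (MvPolynomial (Fin c) F) B] [IsScalarTower F (MvPolynomial (Fin c) F) B]
  [SMulCommClass K (MvPolynomial (Fin c) F) B] [SMulCommClass K F B]
  [Module.Finite (MvPolynomial (Fin c) F) B] in
theorem eventually_proj_comp_eq_zero (W : Submodule K S) [FiniteDimensional K (S ⧸ W)]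
    (φ : S →ₗ[K] B) (h : ∀ s ∈ W, φ s = 0) :
    ∀ᶠ d in atTop, ∀ s, GradedAlgebra.proj 𝒢 d (φ s) = 0 := by
  let φ' : (S ⧸ W) →ₗ[K] B := W.liftQ φ h
  let v := Module.finBasis K (S ⧸ W)
  have h1 : ∀ᶠ d in atTop, ∀ i, GradedAlgebra.proj 𝒢 d (φ' (v i)) = 0 :=
    eventually_all.mpr fun i => eventually_proj_eq_zero 𝒢 _
  filter_upwards [h1] with d hd s
  have h2 : φ s = φ' (W.mkQ s) := rfl
  rw [h2, ← v.sum_repr (W.mkQ s), map_sum, map_sum]
  refine Finset.sum_eq_zero fun i _ => ?_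
  rw [map_smul, LinearMap.map_smul_of_tower, hd i, smul_zero]

/-- Cycles, as a module over the central polynomial ring. -/
def cycles (q : QuadData K S 𝒮 c) (e : Fin c → B) (M : Ideal B) (j : ℕ) :
    Submodule (MvPolynomial (Fin c) F) (S →ₗ[K] B) where
  carrier := {φ | (∀ s ∈ q.W j, φ s = 0) ∧ (∀ s, φ s ∈ M) ∧ dT F q.z e φ = 0}
  add_mem' := fun {φ ψ} hφ hψ => ⟨fun s hs => by simp [hφ.1 s hs, hψ.1 s hs],
    fun s => M.add_mem (hφ.2.1 s) (hψ.2.1 s), by rw [map_add, hφ.2.2, hψ.2.2, add_zero]⟩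
  zero_mem' := ⟨fun _ _ => rfl, fun _ => M.zero_mem, map_zero _⟩
  smul_mem' := fun a {φ} hφ => ⟨fun s hs => by simp [hφ.1 s hs], fun s => by
    rw [LinearMap.smul_apply, Algebra.smul_def]; exact M.mul_mem_left _ (hφ.2.1 s),
    by rw [map_smul, hφ.2.2, smul_zero]⟩

/-- Chains, as a module over the central polynomial ring. -/
def chains (q : QuadData K S 𝒮 c) (M : Ideal B) (j : ℕ) :
    Submodule (MvPolynomial (Fin c) F) (S →ₗ[K] B) where
  carrier := {φ | (∀ s ∈ q.W j, φ s = 0) ∧ (∀ s, φ s ∈ M)}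
  add_mem' := fun {φ ψ} hφ hψ => ⟨fun s hs => by simp [hφ.1 s hs, hψ.1 s hs],
    fun s => M.add_mem (hφ.2 s) (hψ.2 s)⟩
  zero_mem' := ⟨fun _ _ => rfl, fun _ => M.zero_mem⟩
  smul_mem' := fun a {φ} hφ => ⟨fun s hs => by simp [hφ.1 s hs], fun s => by
    rw [LinearMap.smul_apply, Algebra.smul_def]; exact M.mul_mem_left _ (hφ.2 s)⟩

omit [Algebra K F] [Algebra F B] [IsScalarTower K F B]
  [IsScalarTower F (MvPolynomial (Fin c) F) B] [SMulCommClass K F B] in
theorem cycles_fg (q : QuadData K S 𝒮 c) (e : Fin c → B) (M : Ideal B) (j : ℕ) :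
    (cycles (F := F) q e M j).FG := by
  have := q.fin j
  let v := Module.finBasis K (S ⧸ q.W j)
  choose t ht using fun i => (q.W j).mkQ_surjective (v i)
  let ev : (S →ₗ[K] B) →ₗ[MvPolynomial (Fin c) F] (Fin (finrank K (S ⧸ q.W j)) → B) :=
    { toFun := fun φ i => φ (t i)
      map_add' := fun _ _ => rfl
      map_smul' := fun _ _ => rfl }
  have hinj : Function.Injective (ev ∘ₗ (cycles (F := F) q e M j).subtype) := by
    refine (injective_iff_map_eq_zero _).mpr ?_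
    rintro ⟨φ, hφ⟩ h0
    ext s
    let φ' : (S ⧸ q.W j) →ₗ[K] B := (q.W j).liftQ φ hφ.1
    have h1 : φ' = 0 := v.ext fun i => by
      rw [← ht i]
      exact congrFun h0 i
    have h2 : φ s = φ' ((q.W j).mkQ s) := rfl
    simp [h2, h1]
  have : IsNoetherian (MvPolynomial (Fin c) F) (cycles (F := F) q e M j) :=
    isNoetherian_of_injective _ hinj
  exact Module.Finite.iff_fg.mp inferInstance

omit [Algebra K F] [Algebra F B] [IsScalarTower K F B]
  [IsScalarTower F (MvPolynomial (Fin c) F) B] [SMulCommClass K F B]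
  [Module.Finite (MvPolynomial (Fin c) F) B] in
theorem X_smul_mem (q : QuadData K S 𝒮 c) {e : Fin c → B} (he : CliffRel F q.b e) (M : Ideal B)
    (j : ℕ) (k : Fin c) {φ : S →ₗ[K] B} (hφ : φ ∈ cycles (F := F) q e M j) :
    (X k : MvPolynomial (Fin c) F) • φ ∈ (chains (F := F) q M (j + 1)).map (dT F q.z e) := by
  obtain ⟨χ, h1, h2, h3⟩ := kill q he M k φ (fun s hs => hφ.1 s (q.A_hom s hs j)) hφ.2.1 hφ.2.2
  refine ⟨χ ∘ₗ GradedAlgebra.proj 𝒮 (j + 1), ⟨fun s hs => h1 _ hs, fun s => h2 _⟩, ?_⟩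
  ext s
  have h4 := LinearMap.congr_fun h3 (GradedAlgebra.proj 𝒮 j s)
  rw [dT_apply] at h4 ⊢
  have h5 : φ s = φ (GradedAlgebra.proj 𝒮 j s) := by
    have := hφ.1 _ (q.sub_proj_mem_W j s)
    rwa [map_sub, sub_eq_zero] at this
  rw [LinearMap.smul_apply, h5, ← LinearMap.smul_apply, ← h4]
  refine Finset.sum_congr rfl fun i _ => ?_
  rw [LinearMap.comp_apply, add_comm j 1, proj_mul_left 𝒮 (q.z_mem i)]

omit [Algebra K F] [IsScalarTower K F B] [Module.Finite (MvPolynomial (Fin c) F) B] in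
theorem smul_sub_mem (q : QuadData K S 𝒮 c) {e : Fin c → B} (he : CliffRel F q.b e)
    (M : Ideal B) (j : ℕ) (p : MvPolynomial (Fin c) F) :
    ∀ φ ∈ cycles (F := F) q e M j,
      p • φ - constantCoeff p • φ ∈ (chains (F := F) q M (j + 1)).map (dT F q.z e) := by
  induction p using MvPolynomial.induction_on with
  | C a =>
    intro φ _
    have : (C a : MvPolynomial (Fin c) F) • φ = a • φ := by
      ext s
      rw [LinearMap.smul_apply, LinearMap.smul_apply, ← algebraMap_eq, algebraMap_smul]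
    rw [this]
    simp
  | add p p' hp hp' =>
    intro φ hφ
    have := Submodule.add_mem _ (hp φ hφ) (hp' φ hφ)
    convert this using 1
    rw [map_add, add_smul, add_smul]; abel
  | mul_X p k _ =>
    intro φ hφ
    rw [map_mul, constantCoeff_X, mul_zero, zero_smul, sub_zero, mul_smul]
    exact Submodule.smul_mem _ _ (X_smul_mem q he M j k hφ)

theorem eventually_exact (q : QuadData K S 𝒮 c) {e : Fin c → B} (he : CliffRel F q.b e)
    (he1 : ∀ i, e i ∈ 𝒢 1) (M : Ideal B) (hM : ∀ y ∈ M, ∀ d, GradedAlgebra.proj 𝒢 d y ∈ M)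
    (j : ℕ) : ∀ᶠ d in atTop, ∀ φ ∈ homSp (q.W j) (𝒢 (d + 1) ⊓ M.restrictScalars F),
      dT F q.z e φ = 0 →
        ∃ χ ∈ homSp (q.W (j + 1)) (𝒢 d ⊓ M.restrictScalars F), dT F q.z e χ = φ := by
  obtain ⟨G, hG⟩ := cycles_fg (F := F) q e M j
  have hfin := q.fin j
  have h1 : ∀ᶠ d in atTop, ∀ φ ∈ G, ∀ s, GradedAlgebra.proj 𝒢 d (φ s) = 0 := by
    rw [eventually_all_finset]
    intro φ hφ
    have : φ ∈ cycles (F := F) q e M j := hG ▸ Submodule.subset_span hφ
    exact eventually_proj_comp_eq_zero 𝒢 (q.W j) φ this.1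
  obtain ⟨d₀, hd₀⟩ := eventually_atTop.mp h1
  refine eventually_atTop.mpr ⟨d₀, fun d hd φ hφ hT => ?_⟩
  have hφc : φ ∈ cycles (F := F) q e M j := ⟨hφ.1, fun s => (hφ.2 s).2, hT⟩
  have key : ∀ ψ ∈ Submodule.span (MvPolynomial (Fin c) F) (G : Set (S →ₗ[K] B)),
      ∃ ψ₀ : S →ₗ[K] B, (∀ s, GradedAlgebra.proj 𝒢 (d + 1) (ψ₀ s) = 0) ∧
        ψ - ψ₀ ∈ (chains (F := F) q M (j + 1)).map (dT F q.z e) := by
    intro ψ hψ
    induction hψ using Submodule.span_induction with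
    | mem x hx => exact ⟨x, hd₀ (d + 1) (by omega) x hx, by simp⟩
    | zero => exact ⟨0, by simp, by simp⟩
    | add x y _ _ hx hy =>
      obtain ⟨x₀, hx1, hx2⟩ := hx
      obtain ⟨y₀, hy1, hy2⟩ := hy
      refine ⟨x₀ + y₀, fun s => by simp only [LinearMap.add_apply, map_add, hx1, hy1, add_zero], ?_⟩
      convert Submodule.add_mem _ hx2 hy2 using 1
      abel
    | smul p x hxG hx =>
      obtain ⟨x₀, hx1, hx2⟩ := hx
      have hxc : x ∈ cycles (F := F) q e M j := hG ▸ hxG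
      refine ⟨constantCoeff p • x₀, fun s => by
        rw [LinearMap.smul_apply, map_smul, hx1, smul_zero], ?_⟩
      have h2 := smul_sub_mem q he M j p x hxc
      have h3 := Submodule.smul_mem _ (C (constantCoeff p) : MvPolynomial (Fin c) F) hx2
      have h4 : (C (constantCoeff p) : MvPolynomial (Fin c) F) • (x - x₀) =
          constantCoeff p • (x - x₀) := by
        ext s
        rw [LinearMap.smul_apply, LinearMap.smul_apply, ← algebraMap_eq, algebraMap_smul]
      rw [h4] at h3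
      convert Submodule.add_mem _ h2 h3 using 1
      rw [smul_sub]; abel
  obtain ⟨ψ₀, h2, χ, hχ, h3⟩ := key φ (hG ▸ hφc)
  refine ⟨((GradedAlgebra.proj 𝒢 d).restrictScalars K) ∘ₗ χ, ⟨fun s hs => ?_, fun s => ?_⟩, ?_⟩
  · simp [hχ.1 s hs]
  · exact ⟨proj_mem 𝒢 d _, hM _ (hχ.2 s) d⟩
  · ext s
    have h4 := LinearMap.congr_fun h3 s
    have h5 := congrArg (GradedAlgebra.proj 𝒢 (d + 1)) h4
    rw [LinearMap.sub_apply, map_sub, h2, sub_zero, proj_of_mem 𝒢 (hφ.2 s).1, dT_apply,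
      map_sum] at h5
    rw [dT_apply, ← h5]
    refine Finset.sum_congr rfl fun i _ => ?_
    rw [add_comm d 1, proj_mul_left 𝒢 (he1 i)]
    rfl

/-- The Hilbert function of a graded left ideal is eventually killed by the `c`-th difference. -/
theorem fwdDiff_hilbert (q : QuadData K S 𝒮 c) {e : Fin c → B} (he : CliffRel F q.b e)
    (he1 : ∀ i, e i ∈ 𝒢 1) (hfin : ∀ d, FiniteDimensional F (𝒢 d))
    (M : Ideal B) (hM : ∀ y ∈ M, ∀ d, GradedAlgebra.proj 𝒢 d y ∈ M) :
    ∀ᶠ d in atTop, (fwdDiff 1)^[c]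
      (fun d => (finrank F (𝒢 d ⊓ M.restrictScalars F : Submodule F B) : ℤ)) d = 0 := by
  have h1 : ∀ᶠ d in atTop, ∀ j ∈ Finset.range (c + 1),
      ∀ φ ∈ homSp (q.W j) (𝒢 (d + 1) ⊓ M.restrictScalars F), dT F q.z e φ = 0 →
        ∃ χ ∈ homSp (q.W (j + 1)) (𝒢 d ⊓ M.restrictScalars F), dT F q.z e χ = φ := by
    rw [eventually_all_finset]
    exact fun j _ => eventually_exact 𝒢 q he he1 M hM j
  obtain ⟨d₀, hd₀⟩ := eventually_atTop.mp h1
  refine eventually_atTop.mpr ⟨d₀ + 1, fun d hd => ?_⟩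
  obtain ⟨d, rfl⟩ : ∃ d', d = d' + 1 := ⟨d - 1, by omega⟩
  let T : (S →ₗ[K] B) →ₗ[F] (S →ₗ[K] B) := (dT F q.z e).restrictScalars F
  let Y : ℕ → ℕ → Submodule F (S →ₗ[K] B) := fun j d =>
    homSp (q.W j) (𝒢 d ⊓ M.restrictScalars F)
  have hfinM : ∀ d, FiniteDimensional F (𝒢 d ⊓ M.restrictScalars F : Submodule F B) :=
    fun d => Submodule.finiteDimensional_inf_left _ _
  have hY : ∀ j d, FiniteDimensional F (Y j d) := fun j d => by
    have := q.fin j
    exact finite_homSp _ _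
  have hYr : ∀ j d, finrank F (Y j d) =
      c.choose j * finrank F (𝒢 d ⊓ M.restrictScalars F : Submodule F B) := fun j d => by
    have := q.fin j
    rw [finrank_homSp, q.dim j]
  refine fwdDiff_iter_eq_zero_of_telescope c _ (d + 1)
    (fun k => (finrank F ((Y (c + 1 - k) (d + k)).map T) : ℤ)) ?_ ?_ ?_
  · intro k hk
    have h2 := finrank_map_add_finrank_inf_ker (V := S →ₗ[K] B) (V' := S →ₗ[K] B) T
      (Y (c - k) (d + 1 + k))
    rw [hYr, Nat.choose_symm hk] at h2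
    have h3 : Y (c - k) (d + 1 + k) ⊓ LinearMap.ker T = (Y (c + 1 - k) (d + k)).map T := by
      ext φ
      constructor
      · rintro ⟨hφ, h4⟩
        have h5 : d + 1 + k = d + k + 1 := by ring
        have h6 : c + 1 - k = c - k + 1 := by omega
        rw [h6]
        obtain ⟨χ, h7, h8⟩ := hd₀ (d + k) (by omega) (c - k) (by simp) φ (h5 ▸ hφ) h4
        exact ⟨χ, h7, h8⟩
      · rintro ⟨χ, hχ, rfl⟩
        have h6 : c + 1 - k = c - k + 1 := by omega
        rw [h6] at hχ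
        refine ⟨⟨fun s hs => ?_, fun s => ⟨?_, ?_⟩⟩, ?_⟩
        · change dT F q.z e χ s = 0
          rw [dT_apply]
          exact Finset.sum_eq_zero fun i _ => by rw [hχ.1 _ (q.z_mul_mem_W hs i), mul_zero]
        · change dT F q.z e χ s ∈ 𝒢 (d + 1 + k)
          rw [dT_apply, show d + 1 + k = 1 + (d + k) by ring]
          exact Submodule.sum_mem _ fun i _ => SetLike.mul_mem_graded (he1 i) (hχ.2 _).1
        · change dT F q.z e χ s ∈ M
          rw [dT_apply]
          exact M.sum_mem fun i _ => M.mul_mem_left _ (hχ.2 _).2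
        · change dT F q.z e (dT F q.z e χ) = 0
          ext s
          rw [dT_dT q.z he]
          refine Finset.sum_eq_zero fun k' _ => ?_
          rw [hχ.1, smul_zero]
          exact q.A_hom _ (q.A.mul_mem_right _ (q.g_mem k')) _
    rw [h3] at h2
    rw [show c + 1 - (k + 1) = c - k by omega, show d + (k + 1) = d + 1 + k by ring]
    exact_mod_cast h2.symm
  · have : Y (c + 1 - 0) (d + 0) = ⊥ := by
      have := hY (c + 1 - 0) (d + 0)
      rw [← Submodule.finrank_eq_zero, hYr]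
      simp
    change ((finrank F ((Y (c + 1 - 0) (d + 0)).map T) : ℕ) : ℤ) = 0
    rw [this, Submodule.map_bot, finrank_bot, Nat.cast_zero]
  · have : (Y (c + 1 - (c + 1)) (d + (c + 1))).map T = ⊥ := by
      rw [eq_bot_iff]
      rintro _ ⟨χ, hχ, rfl⟩
      rw [Submodule.mem_bot]
      ext s
      change dT F q.z e χ s = 0
      rw [dT_apply]
      rw [Nat.sub_self] at hχ
      exact Finset.sum_eq_zero fun i _ => by rw [hχ.1 _ (q.z_mul_mem_W_zero s i), mul_zero]
    change ((finrank F ((Y (c + 1 - (c + 1)) (d + (c + 1))).map T) : ℕ) : ℤ) = 0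
    rw [this, finrank_bot, Nat.cast_zero]

end Main

end Vale.Agent.P200
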