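import Mathlib
import Vale.Agent.P200.Euler

/-! The graded Clifford type ring is a domain. -/

namespace Vale.Agent.P200

open Filter Module MvPolynomial

/-- Exponent vectors of total degree `d`. -/
noncomputable def monos (n d : ℕ) : Finset (Fin n →₀ ℕ) := Finset.finsuppAntidiag Finset.univ d

theorem mem_monos {n d : ℕ} {m : Fin n →₀ ℕ} : m ∈ monos n d ↔ m.degree = d := by
  simp [monos, Finset.mem_finsuppAntidiag, Finsupp.degree_eq_sum]

theorem card_monos (n d : ℕ) : (monos n d).card = (n + d - 1).choose d := by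
  simp [monos, Finset.card_finsuppAntidiag_nat_eq_choose]

theorem finrank_restrictSupport {F : Type*} [Field F] {n : ℕ} (s : Finset (Fin n →₀ ℕ)) :
    finrank F (restrictSupport F (s : Set (Fin n →₀ ℕ))) = s.card := by
  rw [Module.finrank_eq_card_basis (basisRestrictSupport F (s : Set (Fin n →₀ ℕ)))]
  simp

theorem homogeneousSubmodule_eq_restrict (F : Type*) [Field F] (n d : ℕ) :
    homogeneousSubmodule (Fin n) F d = restrictSupport F (monos n d : Set (Fin n →₀ ℕ)) := by
  rw [homogeneousSubmodule_eq_finsupp_supported]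
  unfold restrictSupport
  congr 1
  ext m
  simp [mem_monos]

theorem finrank_homogeneousSubmodule (F : Type*) [Field F] (n d : ℕ) :
    finrank F (homogeneousSubmodule (Fin n) F d) = (monos n d).card := by
  rw [homogeneousSubmodule_eq_restrict, finrank_restrictSupport]

instance finite_homogeneousSubmodule (F : Type*) [Field F] (n d : ℕ) :
    FiniteDimensional F (homogeneousSubmodule (Fin n) F d) :=
  Module.Finite.iff_fg.mpr (homogeneousSubmodule_fg (Fin n) F d)

theorem finrank_dvd_of_stable {F D B : Type*} [Field F] [DivisionRing D] [Algebra F D]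
    [Ring B] [Algebra F B] (ι : D →ₐ[F] B) (U : Submodule F B)
    (hU : ∀ a : D, ∀ y ∈ U, ι a * y ∈ U) : finrank F D ∣ finrank F U := by
  let : Module D B := Module.compHom B (ι : D →+* B)
  have : IsScalarTower F D B := ⟨fun a x y => by
    change ι (a • x) * y = a • (ι x * y)
    rw [map_smul, smul_mul_assoc]⟩
  let U' : Submodule D B :=
    { carrier := U
      add_mem' := U.add_mem
      zero_mem' := U.zero_mem
      smul_mem' := fun a y hy => hU a y hy }
  have h1 : finrank F U = finrank F U' := by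
    refine LinearEquiv.finrank_eq (R := F) (M := U) (N := U') ?_
    exact
      { toFun := fun y => ⟨y.1, y.2⟩
        invFun := fun y => ⟨y.1, y.2⟩
        map_add' := fun _ _ => rfl
        map_smul' := fun _ _ => rfl
        left_inv := fun _ => rfl
        right_inv := fun _ => rfl }
  rw [h1, ← Module.finrank_mul_finrank F D U']
  exact dvd_mul_right _ _

section Top

variable {F B : Type*} [Field F] [Ring B] [Algebra F B] (𝒢 : ℕ → Submodule F B)
  [GradedAlgebra 𝒢]

theorem exists_top_proj {y : B} (hy : y ≠ 0) :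
    ∃ r, GradedAlgebra.proj 𝒢 r y ≠ 0 ∧ ∀ d, r < d → GradedAlgebra.proj 𝒢 d y = 0 := by
  classical
  have hne : (DirectSum.decompose 𝒢 y).support.Nonempty := by
    by_contra h
    rw [Finset.not_nonempty_iff_eq_empty] at h
    apply hy
    rw [← DirectSum.sum_support_decompose 𝒢 y, h, Finset.sum_empty]
  refine ⟨_, (GradedAlgebra.mem_support_iff 𝒢 y _).mp (Finset.max'_mem _ hne), fun d hd => ?_⟩
  by_contra h
  have := Finset.le_max' _ d ((GradedAlgebra.mem_support_iff 𝒢 y d).mpr h)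
  omega

theorem noZeroDivisors_of_homogeneous
    (h : ∀ r r' : ℕ, ∀ y ∈ 𝒢 r, ∀ y' ∈ 𝒢 r', y * y' = 0 → y = 0 ∨ y' = 0) :
    NoZeroDivisors B := by
  classical
  refine ⟨fun {x y} hxy => ?_⟩
  by_contra hne
  push Not at hne
  obtain ⟨r, hr1, hr2⟩ := exists_top_proj 𝒢 hne.1
  obtain ⟨r', hr1', hr2'⟩ := exists_top_proj 𝒢 hne.2
  have h1 : GradedAlgebra.proj 𝒢 (r + r') (x * y) =
      GradedAlgebra.proj 𝒢 r x * GradedAlgebra.proj 𝒢 r' y := by
    conv_lhs => rw [← DirectSum.sum_support_decompose 𝒢 x]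
    rw [Finset.sum_mul, map_sum, Finset.sum_eq_single r]
    · exact proj_mul_left 𝒢 (proj_mem 𝒢 r x) y
    · intro i _ hi
      rcases lt_or_gt_of_ne hi with hlt | hgt
      · obtain ⟨j, hj⟩ : ∃ j, r + r' = i + j := ⟨r + r' - i, by omega⟩
        rw [hj]
        have := proj_mul_left (d := j) 𝒢 (proj_mem 𝒢 i x) y
        rw [hr2' j (by omega), mul_zero] at this
        exact this
      · have := hr2 i hgt
        rw [GradedAlgebra.proj_apply] at this
        rw [this, zero_mul, map_zero]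
    · intro hr
      exact absurd ((GradedAlgebra.mem_support_iff 𝒢 x r).mpr hr1) hr
  rw [hxy, map_zero] at h1
  rcases h r r' _ (proj_mem 𝒢 r x) _ (proj_mem 𝒢 r' y) h1.symm with h2 | h2
  · exact hr1 h2
  · exact hr1' h2

end Top

section Main

variable {K F S B D : Type*} [Field K] [Field F] [Algebra K F] [CommRing S] [Algebra K S]
  {𝒮 : ℕ → Submodule K S} [GradedAlgebra 𝒮] {k : ℕ}
  [Ring B] [Algebra (MvPolynomial (Fin (k + 1)) F) B] [Algebra F B] [Algebra K B]
  [IsScalarTower K F B] [IsScalarTower F (MvPolynomial (Fin (k + 1)) F) B]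
  [SMulCommClass K (MvPolynomial (Fin (k + 1)) F) B] [SMulCommClass K F B]
  [Module.Finite (MvPolynomial (Fin (k + 1)) F) B]
  (𝒢 : ℕ → Submodule F B) [GradedAlgebra 𝒢] [DivisionRing D] [Algebra F D]

omit [Module.Finite (MvPolynomial (Fin (k + 1)) F) B] in
theorem algebraMap_mem_of_homogeneous
    (hlam : ∀ i, algebraMap (MvPolynomial (Fin (k + 1)) F) B (X i) ∈ 𝒢 2) (s : ℕ) :
    ∀ p ∈ homogeneousSubmodule (Fin (k + 1)) F s,
      algebraMap (MvPolynomial (Fin (k + 1)) F) B p ∈ 𝒢 (2 * s) := by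
  have hsm : ∀ (a : F) (p : MvPolynomial (Fin (k + 1)) F),
      algebraMap (MvPolynomial (Fin (k + 1)) F) B (a • p) =
        a • algebraMap (MvPolynomial (Fin (k + 1)) F) B p := fun a p => by
    rw [Algebra.algebraMap_eq_smul_one, Algebra.algebraMap_eq_smul_one, smul_assoc]
  rw [← homogeneousSubmodule_one_pow]
  induction s with
  | zero =>
    intro p hp
    rw [pow_zero, Submodule.mem_one] at hp
    obtain ⟨a, rfl⟩ := hp
    rw [Algebra.algebraMap_eq_smul_one a, hsm, map_one]
    exact Submodule.smul_mem _ _ (SetLike.one_mem_graded 𝒢)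
  | succ s ih =>
    intro p hp
    rw [pow_succ] at hp
    refine Submodule.mul_induction_on hp (fun m hm x hx => ?_) (fun x y hx hy => ?_)
    · rw [map_mul, mul_add, mul_one]
      refine SetLike.mul_mem_graded (ih m hm) ?_
      rw [homogeneousSubmodule_one_eq_span_X] at hx
      induction hx using Submodule.span_induction with
      | mem x hx => obtain ⟨i, rfl⟩ := hx; exact hlam i
      | zero => simp
      | add x y _ _ hx hy => rw [map_add]; exact Submodule.add_mem _ hx hy
      | smul a x _ hx => rw [hsm]; exact Submodule.smul_mem _ _ hx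
    · rw [map_add]; exact Submodule.add_mem _ hx hy

omit [Module.Finite (MvPolynomial (Fin (k + 1)) F) B] in
theorem lower_bound (hlam : ∀ i, algebraMap (MvPolynomial (Fin (k + 1)) F) B (X i) ∈ 𝒢 2)
    (hfin : ∀ d, FiniteDimensional F (𝒢 d))
    (htf : ∀ (p : MvPolynomial (Fin (k + 1)) F) (y : B), p • y = 0 → p = 0 ∨ y = 0)
    (M : Ideal B) {r : ℕ} {y : B} (hy : y ∈ 𝒢 r) (hyM : y ∈ M) (hy0 : y ≠ 0) (s : ℕ) :
    (s + k).choose k ≤ finrank F (𝒢 (r + 2 * s) ⊓ M.restrictScalars F : Submodule F B) := by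
  have := hfin (r + 2 * s)
  let μ : homogeneousSubmodule (Fin (k + 1)) F s →ₗ[F]
      (𝒢 (r + 2 * s) ⊓ M.restrictScalars F : Submodule F B) :=
    { toFun := fun p => ⟨(p : MvPolynomial (Fin (k + 1)) F) • y, by
        rw [Algebra.smul_def]
        refine ⟨?_, M.mul_mem_left _ hyM⟩
        rw [add_comm]
        exact SetLike.mul_mem_graded (algebraMap_mem_of_homogeneous 𝒢 hlam s p p.2) hy⟩
      map_add' := fun p p' => by ext; simp [add_smul]
      map_smul' := fun a p => by ext; simp [smul_assoc] }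
  have hinj : Function.Injective μ := by
    refine (injective_iff_map_eq_zero _).mpr fun p hp => ?_
    have h1 : (p : MvPolynomial (Fin (k + 1)) F) • y = 0 := congrArg Subtype.val hp
    exact Subtype.ext ((htf _ _ h1).resolve_right hy0)
  have h2 := LinearMap.finrank_le_finrank_of_injective hinj
  rw [finrank_homogeneousSubmodule, card_monos, show k + 1 + s - 1 = s + k by omega,
    Nat.choose_symm_add] at h2
  exact h2

theorem noZeroDivisors_cliff [FiniteDimensional F D] (q : QuadData K S 𝒮 (k + 1))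
    {e : Fin (k + 1) → B} (he : CliffRel F q.b e) (he1 : ∀ i, e i ∈ 𝒢 1)
    (hlam : ∀ i, algebraMap (MvPolynomial (Fin (k + 1)) F) B (X i) ∈ 𝒢 2)
    (ι : D →ₐ[F] B) (hι : ∀ a, ι a ∈ 𝒢 0) (hfin : ∀ d, FiniteDimensional F (𝒢 d))
    (hdim : ∀ d, finrank F (𝒢 d) = finrank F D * (d + k).choose k)
    (htf : ∀ (p : MvPolynomial (Fin (k + 1)) F) (y : B), p • y = 0 → p = 0 ∨ y = 0) :
    NoZeroDivisors B := by
  refine noZeroDivisors_of_homogeneous 𝒢 fun r r' y hy y' hy' h0 => ?_
  by_contra hne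
  push Not at hne
  let ρ : B →ₗ[B] B := LinearMap.toSpanSingleton B B y'
  have hρ : ∀ x, ρ x = x * y' := fun x => rfl
  let M₁ : Ideal B := LinearMap.ker ρ
  let M₂ : Ideal B := LinearMap.range ρ
  have hM₁ : ∀ x ∈ M₁, ∀ d, GradedAlgebra.proj 𝒢 d x ∈ M₁ := by
    intro x hx d
    have h1 : x * y' = 0 := hx
    change GradedAlgebra.proj 𝒢 d x * y' = 0
    rw [← proj_mul_right 𝒢 hy', h1, map_zero]
  have hM₂ : ∀ x ∈ M₂, ∀ d, GradedAlgebra.proj 𝒢 d x ∈ M₂ := by
    rintro _ ⟨x, rfl⟩ d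
    rw [hρ]
    rcases lt_or_ge d r' with hd | hd
    · rw [proj_mul_right_lt 𝒢 hy' _ hd]; exact M₂.zero_mem
    · obtain ⟨d', rfl⟩ : ∃ d', d = d' + r' := ⟨d - r', by omega⟩
      rw [proj_mul_right 𝒢 hy']
      exact ⟨_, rfl⟩
  have hdvd : ∀ (M : Ideal B) (d : ℕ), ((finrank F D : ℕ) : ℤ) ∣
      (finrank F (𝒢 d ⊓ M.restrictScalars F : Submodule F B) : ℤ) := by
    intro M d
    refine Int.natCast_dvd_natCast.mpr (finrank_dvd_of_stable ι _ fun a x hx => ⟨?_, ?_⟩)
    · have := SetLike.mul_mem_graded (hι a) hx.1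
      rwa [zero_add] at this
    · exact M.mul_mem_left _ hx.2
  refine numeric_contra (k := k) (r₁ := r) (r₂ := r') (r := r') (N := (finrank F D : ℕ))
    (by exact_mod_cast Module.finrank_pos)
    (fwdDiff_hilbert 𝒢 q he he1 hfin M₁ hM₁) (fwdDiff_hilbert 𝒢 q he he1 hfin M₂ hM₂)
    (hdvd M₁) (hdvd M₂) (fun s => ?_) (fun s => ?_) (fun d => ?_)
  · exact_mod_cast lower_bound 𝒢 hlam hfin htf M₁ hy h0 hne.1 s
  · exact_mod_cast lower_bound 𝒢 hlam hfin htf M₂ hy' ⟨1, one_mul y'⟩ hne.2 s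
  · have := hfin d
    have h1 := finrank_map_add_finrank_inf_ker (LinearMap.mulRight F y') (𝒢 d)
    have h2 : (𝒢 d).map (LinearMap.mulRight F y') = 𝒢 (d + r') ⊓ M₂.restrictScalars F := by
      ext x
      constructor
      · rintro ⟨x, hx, rfl⟩
        exact ⟨SetLike.mul_mem_graded hx hy', ⟨x, rfl⟩⟩
      · rintro ⟨hx, x, rfl⟩
        refine ⟨GradedAlgebra.proj 𝒢 d x, proj_mem 𝒢 d x, ?_⟩
        rw [LinearMap.mulRight_apply, ← proj_mul_right 𝒢 hy']
        exact proj_of_mem 𝒢 hx
    have h3 : 𝒢 d ⊓ LinearMap.ker (LinearMap.mulRight F y') = 𝒢 d ⊓ M₁.restrictScalars F := rfl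
    rw [h2, h3, hdim] at h1
    rw [add_comm]
    exact_mod_cast h1

end Main

end Vale.Agent.P200
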