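import Mathlib
import Vale.Agent.P200.BasisGrading
import Vale.Agent.P200.Domain

/-! The graded Clifford algebra of a generic member of a linear system of quadrics. -/

namespace Vale.Agent.P200

open Module MvPolynomial CliffordAlgebra TensorProduct

section Ext

variable {Z : Type*} [CommRing Z] {c : ℕ}

/-- Standard basis of the exterior algebra. -/
noncomputable abbrev xi (Z : Type*) [CommRing Z] (c : ℕ) :
    Basis (Finset (Fin c)) Z (ExteriorAlgebra Z (Fin c → Z)) :=
  (Pi.basisFun Z (Fin c)).ExteriorAlgebra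

theorem xi_empty : xi Z c ∅ = 1 := by
  rw [ExteriorAlgebra.basis_apply_ofCard (n := 0) _ rfl]
  exact ExteriorAlgebra.ιMulti_zero_apply _

theorem xi_singleton (i : Fin c) :
    xi Z c {i} = ExteriorAlgebra.ι Z (Pi.single i (1 : Z) : Fin c → Z) := by
  rw [ExteriorAlgebra.basis_apply_ofCard (n := 1) _ (Finset.card_singleton i)]
  simp only [ExteriorAlgebra.ιMulti_family, ExteriorAlgebra.ιMulti_succ_apply,
    ExteriorAlgebra.ιMulti_zero_apply, mul_one, Function.comp_apply, Pi.basisFun_apply]
  congr 2
  have := (Set.powersetCard.mem_range_ofFinEmbEquiv_symm_iff_mem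
    (Set.powersetCard.ofCard (n := 1) (Finset.card_singleton i)) _).mp ⟨0, rfl⟩
  exact Finset.mem_singleton.mp this

theorem iota_mul_xi_of_mem {i : Fin c} {T : Finset (Fin c)} (h : i ∈ T) :
    ExteriorAlgebra.ι Z (Pi.single i (1 : Z) : Fin c → Z) * xi Z c T = 0 := by
  rw [← xi_singleton]
  exact ExteriorAlgebra.basis_mul_of_not_disjoint (Pi.basisFun Z (Fin c))
    (Set.powersetCard.ofCard (n := 1) (Finset.card_singleton i))
    (Set.powersetCard.ofCard (s := T) rfl) (by simpa using h)

theorem iota_mul_xi_of_notMem {i : Fin c} {T : Finset (Fin c)} (h : i ∉ T) :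
    ∃ ε : ℤˣ, ExteriorAlgebra.ι Z (Pi.single i (1 : Z) : Fin c → Z) * xi Z c T =
      ε • xi Z c (insert i T) := by
  rw [← xi_singleton]
  have hd : Disjoint (Set.powersetCard.ofCard (n := 1) (Finset.card_singleton i)).val
      (Set.powersetCard.ofCard (s := T) rfl).val := by simpa using h
  refine ⟨(Set.powersetCard.permOfDisjoint hd).sign, 
    (ExteriorAlgebra.basis_mul_of_disjoint (Pi.basisFun Z (Fin c)) _ _ hd).trans ?_⟩
  congr 2
  ext a
  simp [Set.powersetCard.coe_disjUnion]

variable (F : Type*) [Field F] [Algebra F Z]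

/-- The `F`-span of the standard basis vectors of exterior degree `k`. -/
def extE (Z : Type*) [CommRing Z] [Algebra F Z] (c k : ℕ) :
    Submodule F (ExteriorAlgebra Z (Fin c → Z)) :=
  Submodule.span F (xi Z c '' {T | T.card = k})

theorem xi_mem_extE {T : Finset (Fin c)} {k : ℕ} (h : T.card = k) : xi Z c T ∈ extE F Z c k :=
  Submodule.subset_span ⟨T, h, rfl⟩

theorem units_smul_mem {M : Type*} [AddCommGroup M] [Module F M] (N : Submodule F M) (ε : ℤˣ)
    {x : M} (hx : x ∈ N) : ε • x ∈ N := by
  rcases Int.units_eq_one_or ε with rfl | rfl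
  · simpa using hx
  · simpa using hx

theorem iota_mul_mem_extE (i : Fin c) {k : ℕ} {y : ExteriorAlgebra Z (Fin c → Z)}
    (hy : y ∈ extE F Z c k) :
    ExteriorAlgebra.ι Z (Pi.single i (1 : Z) : Fin c → Z) * y ∈ extE F Z c (k + 1) := by
  induction hy using Submodule.span_induction with
  | mem y hy =>
    obtain ⟨T, hT, rfl⟩ := hy
    by_cases h : i ∈ T
    · rw [iota_mul_xi_of_mem h]; exact Submodule.zero_mem _
    · obtain ⟨ε, hε⟩ := iota_mul_xi_of_notMem (Z := Z) h
      rw [hε]
      exact units_smul_mem F _ ε (xi_mem_extE F (by rw [Finset.card_insert_of_notMem h, hT]))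
  | zero => simp
  | add y y' _ _ h h' => rw [mul_add]; exact Submodule.add_mem _ h h'
  | smul a y _ h => rw [mul_smul_comm]; exact Submodule.smul_mem _ _ h

theorem contract_xi_mem (φ : Module.Dual Z (Fin c → Z)) (a : Fin c → F)
    (hφ : ∀ i, φ (Pi.single i 1) = algebraMap F Z (a i)) (T : Finset (Fin c)) :
    (T = ∅ → contractLeft (Q := 0) φ (xi Z c T) = 0) ∧
      ∀ k, T.card = k + 1 → contractLeft (Q := 0) φ (xi Z c T) ∈ extE F Z c k := by
  induction T using Finset.induction_on with
  | empty => exact ⟨fun _ => by rw [xi_empty]; exact contractLeft_one _ _, by simp⟩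
  | insert i T hi ih =>
    refine ⟨fun h => absurd h (Finset.insert_ne_empty i T), fun k hk => ?_⟩
    rw [Finset.card_insert_of_notMem hi] at hk
    obtain rfl : T.card = k := by omega
    obtain ⟨ε, hε⟩ := iota_mul_xi_of_notMem (Z := Z) hi
    have h1 : xi Z c (insert i T) =
        ε • (ExteriorAlgebra.ι Z (Pi.single i (1 : Z) : Fin c → Z) * xi Z c T) := by
      rw [hε, smul_smul, Int.units_mul_self, one_smul]
    have h2 : contractLeft (Q := 0) φ (xi Z c (insert i T)) = ε • contractLeft (Q := 0) φ
        (ExteriorAlgebra.ι Z (Pi.single i (1 : Z) : Fin c → Z) * xi Z c T) := by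
      rw [h1]
      rcases Int.units_eq_one_or ε with rfl | rfl <;> simp
    rw [h2]
    refine units_smul_mem F _ ε ?_
    have h3 := contractLeft_ι_mul (Q := (0 : QuadraticForm Z (Fin c → Z))) (d := φ)
      (Pi.single i (1 : Z) : Fin c → Z) (xi Z c T)
    erw [h3]
    refine Submodule.sub_mem _ ?_ ?_
    · rw [hφ, algebraMap_smul]
      exact Submodule.smul_mem _ _ (xi_mem_extE F rfl)
    · rcases T.eq_empty_or_nonempty with hT | hT
      · rw [ih.1 hT, mul_zero]; exact Submodule.zero_mem _
      · obtain ⟨k, hk⟩ : ∃ k, T.card = k + 1 := ⟨T.card - 1, by have := hT.card_pos; omega⟩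
        rw [hk]
        exact iota_mul_mem_extE F i (ih.2 k hk)

end Ext

section Cl

variable {F : Type*} [Field F] {c : ℕ} (b : Fin c → Fin c → Fin c → F)

/-- The constant bilinear forms. -/
noncomputable def bilK (k : Fin c) :
    LinearMap.BilinForm (MvPolynomial (Fin c) F) (Fin c → MvPolynomial (Fin c) F) :=
  Matrix.toBilin' (Matrix.of fun i j => C (b k i j))

/-- The generic bilinear form. -/
noncomputable def bil :
    LinearMap.BilinForm (MvPolynomial (Fin c) F) (Fin c → MvPolynomial (Fin c) F) :=
  ∑ k, (X k : MvPolynomial (Fin c) F) • bilK b k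

/-- The generic quadratic form. -/
noncomputable def qf : QuadraticForm (MvPolynomial (Fin c) F) (Fin c → MvPolynomial (Fin c) F) :=
  (bil b).toQuadraticMap

theorem bil_single (i j : Fin c) :
    bil b (Pi.single i 1) (Pi.single j 1) = ∑ k, b k i j • (X k : MvPolynomial (Fin c) F) := by
  simp [bil, bilK, LinearMap.sum_apply, Matrix.toBilin'_single, smul_eq_C_mul, mul_comm]

theorem qf_proof : (-bil b).toQuadraticMap = 0 - qf b := by
  ext v; simp [qf]

/-- The linear identification with the exterior algebra. -/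
noncomputable def toExt : CliffordAlgebra (qf b) ≃ₗ[MvPolynomial (Fin c) F]
    ExteriorAlgebra (MvPolynomial (Fin c) F) (Fin c → MvPolynomial (Fin c) F) :=
  changeFormEquiv (qf_proof b)

/-- The generators. -/
noncomputable def gen (i : Fin c) : CliffordAlgebra (qf b) := ι (qf b) (Pi.single i 1)

theorem toExt_gen_mul (i : Fin c) (x : CliffordAlgebra (qf b)) :
    toExt b (gen b i * x) = ExteriorAlgebra.ι _ (Pi.single i 1) * toExt b x +
      ∑ k, (X k : MvPolynomial (Fin c) F) •
        contractLeft (Q := 0) (bilK b k (Pi.single i 1)) (toExt b x) := by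
  have h := changeForm_ι_mul (qf_proof b) (Pi.single i 1) x
  change changeForm (qf_proof b) (ι (qf b) (Pi.single i 1) * x) = _
  rw [h, sub_eq_add_neg]
  congr 1
  simp only [bil, LinearMap.neg_apply, map_neg, neg_neg, LinearMap.sum_apply,
    LinearMap.smul_apply, map_sum, map_smul]
  rfl

/-- Basis over the polynomial ring. -/
noncomputable def bZ : Basis (Finset (Fin c)) (MvPolynomial (Fin c) F) (CliffordAlgebra (qf b)) :=
  (xi (MvPolynomial (Fin c) F) c).map (toExt b).symm

/-- Basis over the field. -/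
noncomputable def bF : Basis ((Fin c →₀ ℕ) × Finset (Fin c)) F (CliffordAlgebra (qf b)) :=
  (basisMonomials (Fin c) F).smulTower (bZ b)

theorem bF_apply (β : Fin c →₀ ℕ) (T : Finset (Fin c)) :
    bF b (β, T) = (monomial β (1 : F)) • (toExt b).symm (xi _ c T) := by
  simp [bF, bZ, Basis.smulTower_apply]

/-- Degree of basis vectors. -/
noncomputable def cdeg (p : (Fin c →₀ ℕ) × Finset (Fin c)) : ℕ := 2 * p.1.degree + p.2.card

theorem smul_symm_mem (β : Fin c →₀ ℕ) {k : ℕ}
    {y : ExteriorAlgebra (MvPolynomial (Fin c) F) (Fin c → MvPolynomial (Fin c) F)}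
    (hy : y ∈ extE F (MvPolynomial (Fin c) F) c k) :
    (monomial β (1 : F)) • (toExt b).symm y ∈ bgr (bF b) cdeg (2 * β.degree + k) := by
  induction hy using Submodule.span_induction with
  | mem y hy =>
    obtain ⟨T, hT, rfl⟩ := hy
    rw [← bF_apply]
    exact mem_bgr' _ _ (by simp only [cdeg]; rw [hT])
  | zero => simp
  | add y y' _ _ h h' => rw [map_add, smul_add]; exact Submodule.add_mem _ h h'
  | smul a y _ h =>
    rw [LinearMapClass.map_smul_of_tower, smul_comm]
    exact Submodule.smul_mem _ _ h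

theorem gen_mul_bF (i : Fin c) (p : (Fin c →₀ ℕ) × Finset (Fin c)) :
    gen b i * bF b p ∈ bgr (bF b) cdeg (1 + cdeg p) := by
  obtain ⟨β, T⟩ := p
  rw [bF_apply, mul_smul_comm]
  have h := congrArg (toExt b).symm (toExt_gen_mul b i ((toExt b).symm (xi _ c T)))
  rw [LinearEquiv.symm_apply_apply, LinearEquiv.apply_symm_apply] at h
  rw [h, map_add, smul_add, map_sum, Finset.smul_sum]
  refine Submodule.add_mem _ ?_ (Submodule.sum_mem _ fun k _ => ?_)
  · have := smul_symm_mem b β (iota_mul_mem_extE F i (xi_mem_extE F (T := T) rfl))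
    convert this using 2
    simp only [cdeg]; ring
  · have h1 := contract_xi_mem F (bilK b k (Pi.single i 1)) (fun j => b k i j)
      (fun j => by simp [bilK, Matrix.toBilin'_single]) T
    rcases T.eq_empty_or_nonempty with hT | hT
    · rw [h1.1 hT]; simp
    · obtain ⟨m, hm⟩ : ∃ m, T.card = m + 1 := ⟨T.card - 1, by have := hT.card_pos; omega⟩
      rw [map_smul, smul_smul, X, monomial_mul, mul_one]
      have := smul_symm_mem b (β + Finsupp.single k 1) (h1.2 m hm)
      convert this using 2
      simp only [cdeg, map_add, Finsupp.degree_single, hm]; ring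

theorem X_smul_bF (k : Fin c) (p : (Fin c →₀ ℕ) × Finset (Fin c)) :
    (X k : MvPolynomial (Fin c) F) • bF b p ∈ bgr (bF b) cdeg (2 + cdeg p) := by
  obtain ⟨β, T⟩ := p
  rw [bF_apply, smul_smul, X, monomial_mul, mul_one, ← bF_apply]
  refine mem_bgr' _ _ ?_
  simp only [cdeg, map_add, Finsupp.degree_single]; ring

theorem bF_zero_empty : bF b (0, ∅) = 1 := by
  rw [bF_apply, xi_empty]
  have : toExt b 1 = 1 := changeForm_one (qf_proof b)
  rw [← this, LinearEquiv.symm_apply_apply]
  simp

theorem bF_zero_singleton (i : Fin c) : bF b (0, {i}) = gen b i := by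
  rw [bF_apply, xi_singleton]
  have : toExt b (gen b i) = ExteriorAlgebra.ι _ (Pi.single i 1) := changeForm_ι (qf_proof b) _
  rw [← this, LinearEquiv.symm_apply_apply]
  simp

theorem gen_sq (i : Fin c) : gen b i * gen b i =
    algebraMap _ _ (∑ k, b k i i • (X k : MvPolynomial (Fin c) F)) := by
  rw [gen, ι_sq_scalar, ← bil_single]
  rfl

theorem gen_anti (i j : Fin c) : gen b i * gen b j + gen b j * gen b i =
    algebraMap _ _ (∑ k, b k i j • (X k : MvPolynomial (Fin c) F)) +
      algebraMap _ _ (∑ k, b k j i • (X k : MvPolynomial (Fin c) F)) := by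
  rw [gen, gen, ι_mul_ι_add_swap, ← map_add, ← bil_single, ← bil_single, qf,
    LinearMap.BilinMap.polar_toQuadraticMap]

theorem adjoin_gen : Algebra.adjoin F (Set.range (gen b) ∪
    Set.range fun k : Fin c => algebraMap (MvPolynomial (Fin c) F) (CliffordAlgebra (qf b)) (X k))
      = ⊤ := by
  rw [eq_top_iff]
  rintro x -
  have hZ : ∀ p : MvPolynomial (Fin c) F, algebraMap _ (CliffordAlgebra (qf b)) p ∈
      Algebra.adjoin F (Set.range (gen b) ∪ Set.range fun k : Fin c =>
        algebraMap (MvPolynomial (Fin c) F) (CliffordAlgebra (qf b)) (X k)) := by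
    intro p
    induction p using MvPolynomial.induction_on with
    | C a =>
      rw [← algebraMap_eq, ← IsScalarTower.algebraMap_apply]
      exact Subalgebra.algebraMap_mem _ a
    | add p p' hp hp' => rw [map_add]; exact add_mem hp hp'
    | mul_X p k hp =>
      rw [map_mul]; exact mul_mem hp (Algebra.subset_adjoin (Or.inr ⟨k, rfl⟩))
  induction x using CliffordAlgebra.induction with
  | algebraMap p => exact hZ p
  | ι v =>
    rw [← (Pi.basisFun _ (Fin c)).sum_repr v, map_sum]
    refine sum_mem fun i _ => ?_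
    rw [map_smul, Algebra.smul_def, Pi.basisFun_apply]
    exact mul_mem (hZ _) (Algebra.subset_adjoin (Or.inl ⟨i, rfl⟩))
  | mul x y hx hy => exact mul_mem hx hy
  | add x y hx hy => exact add_mem hx hy

/-- The bijection between index pairs and exponent vectors. -/
noncomputable def pairEquiv (c : ℕ) : (Fin c →₀ ℕ) ≃ (Fin c →₀ ℕ) × Finset (Fin c) where
  toFun γ := (Finsupp.equivFunOnFinite.symm fun i => γ i / 2, Finset.univ.filter fun i => γ i % 2 = 1)
  invFun p := Finsupp.equivFunOnFinite.symm fun i => 2 * p.1 i + if i ∈ p.2 then 1 else 0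
  left_inv γ := by
    ext i
    simp only [Finsupp.equivFunOnFinite_symm_apply_apply, Finset.mem_filter, Finset.mem_univ,
      true_and]
    split_ifs <;> omega
  right_inv p := by
    ext i
    · simp only [Finsupp.equivFunOnFinite_symm_apply_apply]
      split_ifs <;> omega
    · simp only [Finsupp.equivFunOnFinite_symm_apply_apply, Finset.mem_filter, Finset.mem_univ,
        true_and]
      split_ifs with h <;> simp [h]

theorem degree_pairEquiv_symm (p : (Fin c →₀ ℕ) × Finset (Fin c)) :
    ((pairEquiv c).symm p).degree = cdeg p := by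
  simp [pairEquiv, cdeg, Finsupp.degree_eq_sum, Finset.sum_add_distrib, Finset.mul_sum]

end Cl

end Vale.Agent.P200
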