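import Mathlib
import Vale.Agent.P200.Euler

/-! Hilbert series of complete intersections and the construction of the quadric data. -/

namespace Vale.Agent.P200

open Module RingTheory.Sequence

section Graded

variable {K S : Type*} [Field K] [CommRing S] [Algebra K S] (𝒮 : ℕ → Submodule K S)
  [GradedAlgebra 𝒮]

theorem proj_mem_span {T : Set S} (hT : ∀ x ∈ T, ∃ d, x ∈ 𝒮 d) {s : S} (hs : s ∈ Ideal.span T)
    (j : ℕ) : GradedAlgebra.proj 𝒮 j s ∈ Ideal.span T :=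
  Ideal.homogeneous_span 𝒮 T hT j hs

theorem mem_of_proj_mem {𝔟 : Ideal S} {s : S} (h : ∀ j, GradedAlgebra.proj 𝒮 j s ∈ 𝔟) :
    s ∈ 𝔟 := by
  classical
  rw [← DirectSum.sum_support_decompose 𝒮 s]
  exact Submodule.sum_mem _ fun d _ => h d

theorem isWeaklyRegular_perm {rs rs' : List S} (h : IsWeaklyRegular S rs) (hp : rs.Perm rs')
    (hrs : ∀ x ∈ rs, ∃ d, x ∈ 𝒮 (d + 1)) : IsWeaklyRegular S rs' := by
  refine h.prototype_perm hp fun a b t hsub => ?_
  intro T hT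
  obtain ⟨e, he⟩ := hrs a (hsub.subset List.mem_cons_self)
  have hhom : ∀ s ∈ Ideal.ofList t, ∀ j, GradedAlgebra.proj 𝒮 j s ∈ Ideal.ofList t :=
    fun s hs j => proj_mem_span 𝒮 (fun x hx => by
      obtain ⟨d, hd⟩ := hrs x (hsub.subset (by simp [show x ∈ t from hx]))
      exact ⟨_, hd⟩) hs j
  have heq : (Ideal.ofList t • ⊤ : Submodule S S) = Ideal.ofList t := by
    rw [smul_eq_mul, Ideal.mul_top]
  have key : ∀ j s, Submodule.Quotient.mk s ∈ T → GradedAlgebra.proj 𝒮 j s ∈ Ideal.ofList t := by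
    intro j
    induction j using Nat.strong_induction_on with
    | _ j ih =>
      intro s hs
      have hs' := hs
      rw [hT, Submodule.mem_smul_pointwise_iff_exists] at hs'
      obtain ⟨y, hy, hys⟩ := hs'
      obtain ⟨y, rfl⟩ := Submodule.Quotient.mk_surjective _ y
      rw [← Submodule.Quotient.mk_smul, Submodule.Quotient.eq, heq, smul_eq_mul] at hys
      have h1 := hhom _ hys j
      rw [map_sub] at h1
      have h2 : GradedAlgebra.proj 𝒮 j (a * y) ∈ Ideal.ofList t := by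
        by_cases hj : j < e + 1
        · rw [proj_mul_left_lt 𝒮 he _ hj]; exact zero_mem _
        · obtain ⟨i, rfl⟩ : ∃ i, j = e + 1 + i := ⟨j - (e + 1), by omega⟩
          rw [proj_mul_left 𝒮 he]
          exact Ideal.mul_mem_left _ _ (ih i (by omega) y hy)
      simpa using Ideal.sub_mem _ h2 h1
  rw [eq_bot_iff]
  intro y hy
  obtain ⟨y, rfl⟩ := Submodule.Quotient.mk_surjective _ y
  rw [Submodule.mem_bot, Submodule.Quotient.mk_eq_zero, heq]
  exact mem_of_proj_mem 𝒮 fun j => key j y hy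

/-- Elements whose degree `j` component lies in the ideal. -/
abbrev Wd (𝔟 : Ideal S) (j : ℕ) : Submodule K S :=
  (𝔟.restrictScalars K).comap (GradedAlgebra.proj 𝒮 j)

theorem mem_Wd {𝔟 : Ideal S} {j : ℕ} {s : S} :
    s ∈ Wd 𝒮 𝔟 j ↔ GradedAlgebra.proj 𝒮 j s ∈ 𝔟 := Iff.rfl

theorem finite_quot_Wd [∀ j, FiniteDimensional K (𝒮 j)] (𝔟 : Ideal S) (j : ℕ) :
    FiniteDimensional K (S ⧸ Wd 𝒮 𝔟 j) := by
  refine Module.Finite.of_surjective ((Wd 𝒮 𝔟 j).mkQ ∘ₗ (𝒮 j).subtype) fun y => ?_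
  obtain ⟨y, rfl⟩ := Submodule.Quotient.mk_surjective _ y
  refine ⟨⟨_, proj_mem 𝒮 j y⟩, ?_⟩
  change Submodule.Quotient.mk _ = _
  rw [Submodule.Quotient.eq, mem_Wd, map_sub]
  simp [proj_proj, -GradedAlgebra.proj_apply]

/-- The Hilbert series of the quotient. -/
noncomputable def hser (𝔟 : Ideal S) : PowerSeries ℤ :=
  PowerSeries.mk fun j => (finrank K (S ⧸ Wd 𝒮 𝔟 j) : ℤ)

theorem hser_bot : hser 𝒮 ⊥ = PowerSeries.mk fun j => (finrank K (𝒮 j) : ℤ) := by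
  ext j
  simp only [hser, PowerSeries.coeff_mk]
  have h1 : Wd 𝒮 ⊥ j = LinearMap.ker (GradedAlgebra.proj 𝒮 j) := by
    ext s; simp [-GradedAlgebra.proj_apply]
  have h2 : LinearMap.range (GradedAlgebra.proj 𝒮 j) = 𝒮 j := by
    ext s
    exact ⟨by rintro ⟨y, rfl⟩; exact proj_mem 𝒮 j y, fun h => ⟨s, proj_of_mem 𝒮 h⟩⟩
  rw [h1, (LinearMap.quotKerEquivRange _).finrank_eq, h2]

theorem hser_sup [∀ j, FiniteDimensional K (𝒮 j)] {𝔟 : Ideal S}
    (h𝔟 : ∀ s ∈ 𝔟, ∀ j, GradedAlgebra.proj 𝒮 j s ∈ 𝔟) {e : ℕ} {g : S} (hg : g ∈ 𝒮 e)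
    (hreg : ∀ s, g * s ∈ 𝔟 → s ∈ 𝔟) :
    hser 𝒮 (𝔟 ⊔ Ideal.span {g}) = (1 - PowerSeries.X ^ e) * hser 𝒮 𝔟 := by
  ext j
  rw [sub_mul, one_mul, map_sub, PowerSeries.coeff_X_pow_mul']
  simp only [hser, PowerSeries.coeff_mk]
  have hle : Wd 𝒮 𝔟 j ≤ Wd 𝒮 (𝔟 ⊔ Ideal.span {g}) j := fun s hs => Ideal.mem_sup_left hs
  have hmem : ∀ s ∈ Wd 𝒮 (𝔟 ⊔ Ideal.span {g}) j, ∃ r, s - g * r ∈ Wd 𝒮 𝔟 j := by
    intro s hs
    obtain ⟨β, hβ, y, hy, hs'⟩ := Submodule.mem_sup.mp ((mem_Wd 𝒮).mp hs)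
    obtain ⟨r, rfl⟩ := Ideal.mem_span_singleton'.mp hy
    refine ⟨r, ?_⟩
    rw [mem_Wd, map_sub, ← proj_proj 𝒮 j s, ← hs', map_add, mul_comm g, add_sub_cancel_right]
    exact h𝔟 β hβ j
  split_ifs with hj
  · obtain ⟨i, rfl⟩ := Nat.exists_eq_add_of_le hj
    rw [Nat.add_sub_cancel_left]
    have := finite_quot_Wd 𝒮 𝔟 (e + i)
    let μ : (S ⧸ Wd 𝒮 𝔟 i) →ₗ[K] (S ⧸ Wd 𝒮 𝔟 (e + i)) :=
      Submodule.mapQ _ _ (LinearMap.mulLeft K g) fun s hs => by
        change GradedAlgebra.proj 𝒮 (e + i) (g * s) ∈ 𝔟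
        rw [proj_mul_left 𝒮 hg]
        exact 𝔟.mul_mem_left _ hs
    have hμ : Function.Injective μ := by
      rw [injective_iff_map_eq_zero]
      intro y hy
      obtain ⟨y, rfl⟩ := Submodule.Quotient.mk_surjective _ y
      rw [Submodule.Quotient.mk_eq_zero, mem_Wd]
      apply hreg
      rw [← proj_mul_left 𝒮 hg]
      exact (Submodule.Quotient.mk_eq_zero (Wd 𝒮 𝔟 (e + i))).mp hy
    have h1 := LinearMap.finrank_range_add_finrank_ker (Submodule.factor hle)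
    have h2 : LinearMap.ker (Submodule.factor hle) = LinearMap.range μ := by
      ext y
      obtain ⟨y, rfl⟩ := Submodule.Quotient.mk_surjective _ y
      constructor
      · intro hy
        obtain ⟨r, hr⟩ := hmem y ((Submodule.Quotient.mk_eq_zero _).mp hy)
        exact ⟨Submodule.Quotient.mk r, ((Submodule.Quotient.eq _).mpr hr).symm⟩
      · rintro ⟨r, hr⟩
        obtain ⟨r, rfl⟩ := Submodule.Quotient.mk_surjective _ r
        rw [← hr]
        refine (Submodule.Quotient.mk_eq_zero _).mpr ?_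
        change GradedAlgebra.proj 𝒮 (e + i) (g * r) ∈ 𝔟 ⊔ Ideal.span {g}
        rw [proj_mul_left 𝒮 hg]
        exact Ideal.mem_sup_right (Ideal.mul_mem_right _ _ (Ideal.mem_span_singleton_self g))
    rw [h2, LinearMap.finrank_range_of_inj hμ,
      LinearMap.range_eq_top.mpr (Submodule.factor_surjective hle), finrank_top] at h1
    omega
  · have h1 : Wd 𝒮 (𝔟 ⊔ Ideal.span {g}) j = Wd 𝒮 𝔟 j := by
      refine le_antisymm (fun s hs => ?_) hle
      obtain ⟨r, hr⟩ := hmem s hs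
      rwa [mem_Wd, map_sub, proj_mul_left_lt 𝒮 hg _ (by omega), sub_zero] at hr
    rw [h1, sub_zero]

theorem regular_of_append {rs : List S} {g : S} (h : IsWeaklyRegular S (rs ++ [g])) (s : S)
    (hs : g * s ∈ Ideal.ofList rs) : s ∈ Ideal.ofList rs := by
  rw [isWeaklyRegular_append_iff, isWeaklyRegular_singleton_iff,
    isSMulRegular_quotient_iff_mem_of_smul_mem, smul_eq_mul, Ideal.mul_top] at h
  exact h.2 s hs

theorem hser_append [∀ j, FiniteDimensional K (𝒮 j)] {rs₀ : List S}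
    (h₀ : ∀ x ∈ rs₀, ∃ d, x ∈ 𝒮 d) {e : ℕ} (rs : List S) (hrs : ∀ x ∈ rs, x ∈ 𝒮 e)
    (h : IsWeaklyRegular S (rs₀ ++ rs)) :
    hser 𝒮 (Ideal.ofList (rs₀ ++ rs)) =
      (1 - PowerSeries.X ^ e) ^ rs.length * hser 𝒮 (Ideal.ofList rs₀) := by
  induction rs using List.reverseRecOn with
  | nil => simp
  | append_singleton rs g ih =>
    rw [← List.append_assoc] at h ⊢
    rw [Ideal.ofList_append, Ideal.ofList_singleton,
      hser_sup 𝒮 (fun s hs j => proj_mem_span 𝒮 (fun x hx => ?_) hs j) (hrs g (by simp))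
        (regular_of_append h),
      ih (fun x hx => hrs x (by simp [hx])) ((isWeaklyRegular_append_iff _ _ _).mp h).1]
    · simp only [List.length_append, List.length_singleton]
      ring
    · rcases List.mem_append.mp hx with hx | hx
      · exact h₀ x hx
      · exact ⟨e, hrs x (by simp [hx])⟩

end Graded

end Vale.Agent.P200
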