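import Mathlib

/-! Extending regular sequences by linear forms. -/

namespace Vale.Agent.P200

open RingTheory.Sequence CategoryTheory Abelian MvPolynomial

universe u

theorem exists_regular_of_ext {R : Type u} [CommRing R] [IsNoetherianRing R]
    (N : ModuleCat.{u} R) [Module.Finite R N] (rs : List R) :
    ∀ (M : ModuleCat.{u} R) [Module.Finite R M] (n : ℕ), (∀ i < n, Subsingleton (Ext N M i)) →
      IsWeaklyRegular M rs → rs.length < n →
      ∃ r ∈ Module.annihilator R N,
        IsSMulRegular (M ⧸ (Ideal.ofList rs • ⊤ : Submodule R M)) r := by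
  induction rs with
  | nil =>
    intro M _ n hext _ hn
    have : Subsingleton (N ⟶ M) := Ext.addEquiv₀.subsingleton_congr.mp (hext 0 hn)
    have : Subsingleton (N →ₗ[R] M) := ModuleCat.homAddEquiv.symm.subsingleton
    obtain ⟨x, hx1, hx2⟩ := IsSMulRegular.subsingleton_linearMap_iff.mp this
    refine ⟨x, hx1, ?_⟩
    exact ((Submodule.quotEquivOfEqBot _ (by simp)).isSMulRegular_congr x).mpr hx2
  | cons a rs ih =>
    intro M _ n hext hreg hn
    rw [isWeaklyRegular_cons_iff] at hreg
    obtain ⟨n, rfl⟩ : ∃ m, n = m + 1 := ⟨n - 1, by simp at hn; omega⟩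
    have hext' : ∀ i < n, Subsingleton (Ext N (ModuleCat.of R (QuotSMulTop a M)) i) := by
      intro i hi
      have zero1 := AddCommGrpCat.isZero_of_iff_subsingleton.mpr (hext i (by omega))
      have zero2 := AddCommGrpCat.isZero_of_iff_subsingleton.mpr (hext (i + 1) (by omega))
      exact AddCommGrpCat.subsingleton_of_isZero <| ShortComplex.Exact.isZero_of_both_zeros
        ((Ext.covariant_sequence_exact₃' N hreg.1.smulShortComplex_shortExact) i (i + 1) rfl)
        (zero1.eq_zero_of_src _) (zero2.eq_zero_of_tgt _)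
    obtain ⟨r, hr1, hr2⟩ := ih (ModuleCat.of R (QuotSMulTop a M)) n hext' hreg.2
      (by simpa using hn)
    exact ⟨r, hr1, ((Submodule.quotOfListConsSMulTopEquivQuotSMulTopInner M a
      rs).isSMulRegular_congr r).mpr hr2⟩

theorem exists_regular_of_lt {R : Type u} [CommRing R] [IsNoetherianRing R] (𝔪 : Ideal R)
    (h𝔪 : 𝔪 ≠ ⊤) (xs : List R) (hx : ∀ x ∈ xs, x ∈ 𝔪) (hxs : IsRegular R xs) (rs : List R)
    (hrs : IsWeaklyRegular R rs) (hlen : rs.length < xs.length) :
    ∃ r ∈ 𝔪, IsSMulRegular (R ⧸ (Ideal.ofList rs • ⊤ : Submodule R R)) r := by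
  have h1 := ModuleCat.subsingleton_ext_of_exists_isRegular 𝔪 (ModuleCat.of R (R ⧸ 𝔪))
    (by rw [Module.support_eq_zeroLocus, Ideal.annihilator_quotient]) (ModuleCat.of R R)
    (by rw [smul_eq_mul, Ideal.mul_top]; exact h𝔪.lt_top) xs hx hxs
  obtain ⟨r, hr1, hr2⟩ := exists_regular_of_ext (ModuleCat.of R (R ⧸ 𝔪)) rs (ModuleCat.of R R)
    _ h1 hrs hlen
  rw [Ideal.annihilator_quotient] at hr1
  exact ⟨r, hr1, hr2⟩

theorem exists_regular_mem {K R M : Type*} [Field K] [Infinite K] [CommRing R] [Algebra K R]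
    [IsNoetherianRing R] [AddCommGroup M] [Module R M] [Module.Finite R M] (V : Submodule K R)
    {r : R} (hr : r ∈ Ideal.span (V : Set R)) (hreg : IsSMulRegular M r) :
    ∃ v ∈ V, IsSMulRegular M v := by
  have hfin : Finite (associatedPrimes R M) := (associatedPrimes.finite R M).to_subtype
  have key : ∀ x : R, IsSMulRegular M x ↔ ∀ p ∈ associatedPrimes R M, x ∉ p := by
    intro x
    have := Set.ext_iff.mp (biUnion_associatedPrimes_eq_compl_regular R M) x
    simp only [Set.mem_iUnion, SetLike.mem_coe, Set.mem_compl_iff, Set.mem_ofPred_eq] at this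
    constructor
    · intro h p hp hx
      exact this.mp ⟨p, hp, hx⟩ h
    · intro h
      by_contra h'
      obtain ⟨p, hp, hx⟩ := this.mpr h'
      exact h p hp hx
  obtain ⟨x, hx⟩ := Submodule.exists_forall_notMem_of_forall_ne_top
    (fun p : associatedPrimes R M => (p.1.restrictScalars K).comap V.subtype) (fun p hp => by
      refine (key r).mp hreg p.1 p.2 ?_
      refine (Ideal.span_le.mpr fun v hv => ?_) hr
      have : (⟨v, hv⟩ : V) ∈ (p.1.restrictScalars K).comap V.subtype := by rw [hp]; trivial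
      exact this)
  exact ⟨x, x.2, (key x).mpr fun p hp => hx ⟨p, hp⟩⟩

theorem isRegular_X_seq (K : Type*) [Field K] (n : ℕ) :
    IsRegular (MvPolynomial (Fin n) K) (List.ofFn (X : Fin n → MvPolynomial (Fin n) K)) := by
  refine ⟨⟨fun i hi => ?_⟩, ?_⟩
  · have hi' : i < n := by simpa using hi
    have h1 : Ideal.ofList ((List.ofFn (X : Fin n → MvPolynomial (Fin n) K)).take i) =
        Ideal.span (X '' {j : Fin n | j.val < i}) := by
      refine congrArg Ideal.span (Set.ext fun x => ?_)
      simp only [List.mem_take_iff_getElem, List.getElem_ofFn, List.length_ofFn, Set.mem_ofPred_eq,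
        Set.mem_image]
      constructor
      · rintro ⟨j, hj, rfl⟩
        exact ⟨⟨j, by omega⟩, by simp only; omega, rfl⟩
      · rintro ⟨j, hj, rfl⟩
        exact ⟨j, by omega, rfl⟩
    rw [isSMulRegular_quotient_iff_mem_of_smul_mem, smul_eq_mul, Ideal.mul_top, h1,
      List.getElem_ofFn]
    intro p hp
    rw [mem_ideal_span_X_image] at hp ⊢
    intro m hm
    obtain ⟨j, hj, hj'⟩ := hp (Finsupp.single ⟨i, hi'⟩ 1 + m) (by
      rw [mem_support_iff, smul_eq_mul, coeff_X_mul]
      exact mem_support_iff.mp hm)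
    refine ⟨j, hj, ?_⟩
    rwa [Finsupp.add_apply, Finsupp.single_eq_of_ne (by
      rintro rfl; exact lt_irrefl i hj), zero_add] at hj'
  · rw [smul_eq_mul, Ideal.mul_top]
    intro h
    have h1 : (1 : MvPolynomial (Fin n) K) ∈ Ideal.span (X '' (Set.univ : Set (Fin n))) := by
      have h2 : (1 : MvPolynomial (Fin n) K) ∈
          Ideal.ofList (List.ofFn (X : Fin n → MvPolynomial (Fin n) K)) := by
        have := Submodule.mem_top (R := MvPolynomial (Fin n) K) (x := (1 : MvPolynomial (Fin n) K))
        rw [h] at this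
        exact this
      refine Ideal.span_mono (fun x hx => ?_) h2
      obtain ⟨j, rfl⟩ := List.mem_ofFn.mp hx
      exact ⟨j, trivial, rfl⟩
    rw [mem_ideal_span_X_image] at h1
    obtain ⟨j, -, hj⟩ := h1 0 (by simp)
    exact hj rfl

theorem exists_linear_extension {K : Type u} [Field K] [Infinite K] {n : ℕ}
    (rs : List (MvPolynomial (Fin n) K)) (hrs : IsWeaklyRegular (MvPolynomial (Fin n) K) rs)
    (r : ℕ) (hr : rs.length + r ≤ n) :
    ∃ l : Fin r → MvPolynomial (Fin n) K, (∀ j, l j ∈ homogeneousSubmodule (Fin n) K 1) ∧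
      IsWeaklyRegular (MvPolynomial (Fin n) K) (rs ++ List.ofFn l) := by
  induction r with
  | zero => exact ⟨Fin.elim0, fun j => j.elim0, by simpa using hrs⟩
  | succ r ih =>
    obtain ⟨l, hl1, hl2⟩ := ih (by omega)
    have hX := isRegular_X_seq K n
    obtain ⟨x, hx1, hx2⟩ := exists_regular_of_lt
      (Ideal.ofList (List.ofFn (X : Fin n → MvPolynomial (Fin n) K))) (by
        intro h
        apply hX.top_ne_smul
        rw [h]; simp) _ (fun x hx => Ideal.subset_span hx) hX _ hl2 (by simp; omega)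
    obtain ⟨v, hv1, hv2⟩ := exists_regular_mem (homogeneousSubmodule (Fin n) K 1)
      (Ideal.span_mono (fun x hx => by
        obtain ⟨j, rfl⟩ := List.mem_ofFn.mp hx
        exact isHomogeneous_X K j) hx1) hx2
    refine ⟨Fin.snoc l v, fun j => ?_, ?_⟩
    · induction j using Fin.lastCases with
      | last => simpa using hv1
      | cast j => simpa using hl1 j
    · rw [List.ofFn_succ_last]
      simp only [Fin.snoc_castSucc, Fin.snoc_last]
      rw [← List.append_assoc, isWeaklyRegular_append_iff, isWeaklyRegular_singleton_iff]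
      exact ⟨hl2, hv2⟩

end Vale.Agent.P200
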