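import Mathlib
import Vale.Agent.P200.Domain

/-! Initial ideals with respect to commuting linear forms with division ring coefficients. -/

namespace Vale.Agent.P200

open Module MvPolynomial TensorProduct

theorem finrank_sup_span_singleton' {D V : Type*} [DivisionRing D] [AddCommGroup V] [Module D V]
    {p : Submodule D V} [FiniteDimensional D p] {v : V} (hv : v ∉ p) :
    finrank D (p ⊔ Submodule.span D {v} : Submodule D V) = finrank D p + 1 := by
  have h0 : v ≠ 0 := fun h => hv (h ▸ p.zero_mem)
  have h1 := Submodule.finrank_sup_add_finrank_inf_eq p (Submodule.span D {v})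
  rw [(Submodule.disjoint_span_singleton_of_notMem hv).eq_bot, finrank_bot,
    finrank_span_singleton h0] at h1
  exact h1

open Classical in
theorem count_standard {D V Γ α : Type*} [DivisionRing D] [AddCommGroup V] [Module D V]
    [LinearOrder α] (key : Γ → α) (hkey : Function.Injective key) (v : Γ → V)
    (U : Submodule D V) [FiniteDimensional D U] (s : Finset Γ) :
    finrank D (U ⊔ Submodule.span D (v '' s) : Submodule D V) = finrank D U +
      (s.filter fun γ => v γ ∉ U ⊔ Submodule.span D (v '' {δ | δ ∈ s ∧ key δ < key γ})).card := by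
  induction s using Finset.induction_on_max_value key with
  | empty =>
    rw [Finset.coe_empty, Set.image_empty, Submodule.span_empty, sup_bot_eq]
    simp
  | insert a s ha hmax ih =>
    have h1 : ∀ γ ∈ s, {δ | δ ∈ insert a s ∧ key δ < key γ} = {δ | δ ∈ s ∧ key δ < key γ} := by
      intro γ hγ
      ext δ
      simp only [Finset.mem_insert, Set.mem_ofPred_eq]
      constructor
      · rintro ⟨rfl | h, h'⟩
        · exact absurd h' (not_lt.mpr (hmax γ hγ))
        · exact ⟨h, h'⟩
      · rintro ⟨h, h'⟩; exact ⟨Or.inr h, h'⟩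
    have h2 : {δ | δ ∈ insert a s ∧ key δ < key a} = (s : Set Γ) := by
      ext δ
      simp only [Finset.mem_insert, Set.mem_ofPred_eq, Finset.mem_coe]
      constructor
      · rintro ⟨rfl | h, h'⟩
        · exact absurd h' (lt_irrefl _)
        · exact h
      · intro h
        exact ⟨Or.inr h, lt_of_le_of_ne (hmax δ h) fun h' => ha (hkey h' ▸ h)⟩
    have h3 : (s.filter fun γ =>
        v γ ∉ U ⊔ Submodule.span D (v '' {δ | δ ∈ insert a s ∧ key δ < key γ})) =
        s.filter fun γ => v γ ∉ U ⊔ Submodule.span D (v '' {δ | δ ∈ s ∧ key δ < key γ}) :=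
      Finset.filter_congr fun γ hγ => by rw [h1 γ hγ]
    have h4 : U ⊔ Submodule.span D (v '' (insert a s : Finset Γ)) =
        (U ⊔ Submodule.span D (v '' s)) ⊔ Submodule.span D {v a} := by
      rw [Finset.coe_insert, Set.image_insert_eq, Submodule.span_insert, sup_assoc,
        sup_comm (Submodule.span D {v a})]
    have : FiniteDimensional D (Submodule.span D (v '' s)) :=
      FiniteDimensional.span_of_finite D (s.finite_toSet.image v)
    rw [Finset.filter_insert, h2, h3, h4]
    split_ifs with h
    · rw [sup_eq_left.mpr ((Submodule.span_singleton_le_iff_mem _ _).mpr h), ih]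
    · rw [finrank_sup_span_singleton' h, ih, Finset.card_insert_of_notMem (by simp [ha])]
      ring

theorem exists_monomial_map {R : Type*} [Monoid R] {n : ℕ} (y : Fin n → R)
    (hy : ∀ i j, y i * y j = y j * y i) :
    ∃ m : (Fin n →₀ ℕ) → R, m 0 = 1 ∧ ∀ γ i, m (γ + Finsupp.single i 1) = m γ * y i := by
  let M := Submonoid.closure (Set.range y)
  let : CommMonoid M := Submonoid.closureCommMonoidOfComm R (by
    rintro _ ⟨i, rfl⟩ _ ⟨j, rfl⟩; exact hy i j)
  let y' : Fin n → M := fun i => ⟨y i, Submonoid.subset_closure ⟨i, rfl⟩⟩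
  refine ⟨fun γ => ((γ.prod fun i k => y' i ^ k : M) : R), by simp, fun γ i => ?_⟩
  simp only
  rw [Finsupp.prod_add_index' (by simp) (by simp [pow_add]), Finsupp.prod_single_index (by simp)]
  simp [y']

section

variable {K D S : Type*} [Field K] [DivisionRing D] [Algebra K D] [CommRing S] [Algebra K S]

theorem smul_mul_tensor (a : D) (x y : D ⊗[K] S) : (a • x) * y = a • (x * y) := by
  have : ∀ x : D ⊗[K] S, a • x = (a ⊗ₜ[K] (1 : S)) * x := by
    intro x
    induction x using TensorProduct.induction_on with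
    | zero => simp
    | tmul b s => simp [smul_tmul']
    | add x x' h h' => rw [smul_add, mul_add, h, h']
  rw [this, this, mul_assoc]

theorem one_tmul_mul_smul (s : S) (a : D) (y : D ⊗[K] S) :
    ((1 : D) ⊗ₜ[K] s) * (a • y) = a • (((1 : D) ⊗ₜ[K] s) * y) := by
  induction y using TensorProduct.induction_on with
  | zero => simp
  | tmul b t => simp [smul_tmul']
  | add x x' h h' => rw [smul_add, mul_add, h, h', mul_add, smul_add]

/-- Right multiplication as a left linear map. -/
def rmul (y : D ⊗[K] S) : D ⊗[K] S →ₗ[D] D ⊗[K] S where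
  toFun x := x * y
  map_add' x x' := add_mul x x' y
  map_smul' a x := smul_mul_tensor a x y

theorem mul_mem_baseChange {P Q T : Submodule K S} (h : ∀ p ∈ P, ∀ q ∈ Q, p * q ∈ T)
    {x y : D ⊗[K] S} (hx : x ∈ P.baseChange D) (hy : y ∈ Q.baseChange D) :
    x * y ∈ T.baseChange D := by
  obtain ⟨x, rfl⟩ := hx
  obtain ⟨y, rfl⟩ := hy
  induction x using TensorProduct.induction_on with
  | zero => simp
  | add x x' h h' => rw [map_add, add_mul]; exact Submodule.add_mem _ h h'
  | tmul a p =>
    induction y using TensorProduct.induction_on with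
    | zero => simp
    | add y y' h h' => rw [map_add, mul_add]; exact Submodule.add_mem _ h h'
    | tmul b q =>
      simp only [LinearMap.baseChange_tmul, Submodule.subtype_apply,
        Algebra.TensorProduct.tmul_mul_tmul]
      exact Submodule.tmul_mem_baseChange_of_mem _ (h _ p.2 _ q.2)

theorem finrank_submodule_baseChange (P : Submodule K S) [FiniteDimensional K P] :
    FiniteDimensional D (P.baseChange D) ∧ finrank D (P.baseChange D) = finrank K P := by
  have hinj : Function.Injective (P.subtype.baseChange D) :=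
    Module.Flat.lTensor_preserves_injective_linearMap (M := D) P.subtype P.injective_subtype
  refine ⟨by unfold Submodule.baseChange; infer_instance, ?_⟩
  unfold Submodule.baseChange
  rw [LinearMap.finrank_range_of_inj hinj, Module.finrank_baseChange]

end

section Init

variable {K D : Type*} [Field K] [DivisionRing D] [Algebra K D] {n : ℕ}

/-- Degree `d` part of an ideal. -/
noncomputable abbrev idealDeg (I : Ideal (MvPolynomial (Fin n) K)) (d : ℕ) :
    Submodule K (MvPolynomial (Fin n) K) :=
  homogeneousSubmodule (Fin n) K d ⊓ I.restrictScalars K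

/-- The subspace spanned by the ideal and the smaller monomials. -/
noncomputable def lowSp (m : (Fin n →₀ ℕ) → D ⊗[K] MvPolynomial (Fin n) K)
    (I : Ideal (MvPolynomial (Fin n) K)) (d : ℕ) (γ : Fin n →₀ ℕ) :
    Submodule D (D ⊗[K] MvPolynomial (Fin n) K) :=
  (idealDeg I d).baseChange D ⊔
    Submodule.span D (m '' {δ | δ ∈ monos n d ∧ toColex γ < toColex δ})

variable (y : Fin n → D ⊗[K] MvPolynomial (Fin n) K)
  (hy1 : ∀ i, y i ∈ (homogeneousSubmodule (Fin n) K 1).baseChange D)
  (hspan : ∀ j, (1 : D) ⊗ₜ[K] (X j : MvPolynomial (Fin n) K) ∈ Submodule.span D (Set.range y))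
  (m : (Fin n →₀ ℕ) → D ⊗[K] MvPolynomial (Fin n) K) (hm0 : m 0 = 1)
  (hm : ∀ γ i, m (γ + Finsupp.single i 1) = m γ * y i)

include hy1 hm in
theorem lowSp_step (I : Ideal (MvPolynomial (Fin n) K)) (γ : Fin n →₀ ℕ) (d : ℕ)
    (hγ : m γ ∈ lowSp m I d γ) (i : Fin n) :
    m (γ + Finsupp.single i 1) ∈ lowSp m I (d + 1) (γ + Finsupp.single i 1) := by
  have h1 := Submodule.mem_map_of_mem (f := rmul (y i)) hγ
  have h2 : Submodule.map (rmul (y i)) (lowSp m I d γ) ≤
      lowSp m I (d + 1) (γ + Finsupp.single i 1) := by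
    unfold lowSp
    rw [Submodule.map_sup, Submodule.map_span]
    refine sup_le_sup ?_ (Submodule.span_mono ?_)
    · rintro _ ⟨x, hx, rfl⟩
      exact mul_mem_baseChange (P := idealDeg I d) (Q := homogeneousSubmodule (Fin n) K 1)
        (T := idealDeg I (d + 1)) (fun p hp q hq => Submodule.mem_inf.mpr
        ⟨IsHomogeneous.mul hp.1 hq, I.mul_mem_right _ hp.2⟩) hx (hy1 i)
    · rintro _ ⟨_, ⟨δ, ⟨hδ1, hδ2⟩, rfl⟩, rfl⟩
      refine ⟨δ + Finsupp.single i 1, ⟨?_, ?_⟩, hm δ i⟩
      · rw [mem_monos] at hδ1 ⊢
        rw [map_add, hδ1, Finsupp.degree_single]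
      · exact add_lt_add_left hδ2 (toColex (Finsupp.single i 1))
  rw [hm]
  exact h2 h1

include hy1 hm0 hm in
theorem monomial_mem_baseChange (d : ℕ) : ∀ γ : Fin n →₀ ℕ, γ.degree = d →
    m γ ∈ (homogeneousSubmodule (Fin n) K d).baseChange D := by
  induction d with
  | zero =>
    intro γ hγ
    rw [(Finsupp.degree_eq_zero_iff γ).mp hγ, hm0]
    exact Submodule.tmul_mem_baseChange_of_mem 1 (isHomogeneous_one _ _)
  | succ d ih =>
    intro γ hγ
    obtain ⟨i, hi⟩ : ∃ i, γ i ≠ 0 := by
      by_contra h
      push Not at h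
      have : γ = 0 := Finsupp.ext h
      simp [this] at hγ
    have h1 : γ = (γ - Finsupp.single i 1) + Finsupp.single i 1 :=
      (Finsupp.sub_add_single_one_cancel hi).symm
    have h2 : (γ - Finsupp.single i 1).degree = d := by
      rw [h1, map_add, Finsupp.degree_single] at hγ
      omega
    rw [h1, hm]
    exact mul_mem_baseChange (fun p hp q hq => IsHomogeneous.mul hp hq) (ih _ h2) (hy1 i)

include hspan in
theorem one_tmul_mem_span {x : MvPolynomial (Fin n) K}
    (hx : x ∈ homogeneousSubmodule (Fin n) K 1) :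
    (1 : D) ⊗ₜ[K] x ∈ Submodule.span D (Set.range y) := by
  rw [homogeneousSubmodule_one_eq_span_X] at hx
  induction hx using Submodule.span_induction with
  | mem x hx => obtain ⟨j, rfl⟩ := hx; exact hspan j
  | zero => simp
  | add x x' _ _ h h' => rw [tmul_add]; exact Submodule.add_mem _ h h'
  | smul a x _ h => rw [tmul_smul]; exact Submodule.smul_of_tower_mem _ _ h

include hspan hm0 hm in
theorem one_tmul_mem_span_monos (d : ℕ) : ∀ s ∈ homogeneousSubmodule (Fin n) K d,
    (1 : D) ⊗ₜ[K] s ∈ Submodule.span D (m '' (monos n d)) := by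
  rw [← homogeneousSubmodule_one_pow]
  induction d with
  | zero =>
    intro s hs
    rw [pow_zero, Submodule.mem_one] at hs
    obtain ⟨a, rfl⟩ := hs
    rw [Algebra.algebraMap_eq_smul_one, tmul_smul]
    refine Submodule.smul_of_tower_mem _ _ (Submodule.subset_span ⟨0, ?_, hm0⟩)
    simp [mem_monos]
  | succ d ih =>
    intro s hs
    rw [pow_succ] at hs
    refine Submodule.mul_induction_on hs (fun p hp x hx => ?_) (fun x y hx hy => ?_)
    · have h1 : ∀ w ∈ Submodule.span D (Set.range y),
          ((1 : D) ⊗ₜ[K] p) * w ∈ Submodule.span D (m '' (monos n (d + 1))) := by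
        intro w hw
        induction hw using Submodule.span_induction with
        | mem w hw =>
          obtain ⟨i, rfl⟩ := hw
          have h2 := Submodule.mem_map_of_mem (f := rmul (y i)) (ih p hp)
          rw [Submodule.map_span] at h2
          refine Submodule.span_mono ?_ h2
          rintro _ ⟨_, ⟨δ, hδ, rfl⟩, rfl⟩
          refine ⟨δ + Finsupp.single i 1, ?_, hm δ i⟩
          rw [Finset.mem_coe, mem_monos] at hδ ⊢
          rw [map_add, hδ, Finsupp.degree_single]
        | zero => simp
        | add w w' _ _ h h' => rw [mul_add]; exact Submodule.add_mem _ h h'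
        | smul a w _ h => rw [one_tmul_mul_smul]; exact Submodule.smul_mem _ _ h
      have h4 := h1 _ (one_tmul_mem_span y hspan hx)
      rwa [Algebra.TensorProduct.tmul_mul_tmul, one_mul] at h4
    · rw [tmul_add]; exact Submodule.add_mem _ hx hy

include hy1 hspan hm0 hm in
theorem span_monos_eq (d : ℕ) : Submodule.span D (m '' (monos n d)) =
    (homogeneousSubmodule (Fin n) K d).baseChange D := by
  refine le_antisymm ?_ ?_
  · rw [Submodule.span_le]
    rintro _ ⟨γ, hγ, rfl⟩
    exact monomial_mem_baseChange y hy1 m hm0 hm d γ (mem_monos.mp hγ)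
  · rw [Submodule.baseChange_eq_span, Submodule.span_le]
    rintro _ ⟨s, hs, rfl⟩
    exact one_tmul_mem_span_monos y hspan m hm0 hm d s hs

include hy1 hspan hm0 hm in
open Classical in
theorem exists_initial (I : Ideal (MvPolynomial (Fin n) K)) :
    ∃ 𝓜 : Set (Fin n →₀ ℕ), IsUpperSet 𝓜 ∧
      (∀ d, ((monos n d).filter (· ∈ 𝓜)).card = finrank K (idealDeg I d)) ∧
      ∀ γ : Fin n →₀ ℕ, m γ ∈ lowSp m I γ.degree γ → γ ∈ 𝓜 := by
  have hadd : ∀ τ γ : Fin n →₀ ℕ, m γ ∈ lowSp m I γ.degree γ →
      m (γ + τ) ∈ lowSp m I (γ + τ).degree (γ + τ) := by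
    intro τ
    induction τ using Finsupp.induction_linear with
    | zero => simp
    | add τ τ' h h' => intro γ hγ; rw [← add_assoc]; exact h' _ (h γ hγ)
    | single i k =>
      induction k with
      | zero => simp
      | succ k ih =>
        intro γ hγ
        have := lowSp_step y hy1 m hm I _ _ (ih γ hγ) i
        rw [Finsupp.single_add, ← add_assoc, map_add _ _ (Finsupp.single i 1),
          Finsupp.degree_single]
        exact this
  refine ⟨{γ | m γ ∈ lowSp m I γ.degree γ}, fun γ γ' hle hγ => ?_, fun d => ?_, fun γ h => h⟩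
  · obtain ⟨τ, rfl⟩ := exists_add_of_le hle
    exact hadd τ γ hγ
  · obtain ⟨hU1, hU2⟩ := finrank_submodule_baseChange (D := D) (idealDeg I d)
    have h1 := count_standard (fun γ : Fin n →₀ ℕ => OrderDual.toDual (toColex γ))
      (fun γ γ' h => by simpa using h) m ((idealDeg I d).baseChange D) (monos n d)
    rw [span_monos_eq y hy1 hspan m hm0 hm d,
      sup_eq_right.mpr (Submodule.baseChange_mono D inf_le_left),
      (finrank_submodule_baseChange _).2, finrank_homogeneousSubmodule, hU2] at h1
    have h3 := Finset.card_filter_add_card_filter_not (s := monos n d)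
      (· ∈ {γ | m γ ∈ lowSp m I γ.degree γ})
    have h4 : ((monos n d).filter fun γ => ¬ (γ ∈ {γ | m γ ∈ lowSp m I γ.degree γ})) =
        (monos n d).filter fun γ => m γ ∉ (idealDeg I d).baseChange D ⊔
          Submodule.span D (m '' {δ | δ ∈ monos n d ∧
            OrderDual.toDual (toColex δ) < OrderDual.toDual (toColex γ)}) := by
      refine Finset.filter_congr fun γ hγ => ?_
      rw [mem_monos] at hγ
      rw [Set.mem_ofPred_eq, hγ]
      simp only [lowSp, OrderDual.toDual_lt_toDual]
    rw [h4] at h3
    omega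

end Init

end Vale.Agent.P200
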