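import Mathlib
import Vale.Agent.P200.Cliff

/-! One step of the tower of division rings. -/

namespace Vale.Agent.P200

open Module MvPolynomial TensorProduct

universe u

section B

variable {F D : Type*} [Field F] [DivisionRing D] [Algebra F D] [FiniteDimensional F D] {c : ℕ}
  (b : Fin c → Fin c → Fin c → F)

/-- Basis of the tensor product. -/
noncomputable def bB (D : Type*) [DivisionRing D] [Algebra F D] [FiniteDimensional F D] :
    Basis (((Fin c →₀ ℕ) × Finset (Fin c)) × Fin (finrank F D)) F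
      (CliffordAlgebra (qf b) ⊗[F] D) :=
  (bF b).tensorProduct (Module.finBasis F D)

/-- The grading on the tensor product. -/
noncomputable def gB (D : Type*) [DivisionRing D] [Algebra F D] [FiniteDimensional F D] :
    ℕ → Submodule F (CliffordAlgebra (qf b) ⊗[F] D) :=
  bgr (bB b D) fun p => cdeg p.1

theorem tmul_mem_gB {d : ℕ} {x : CliffordAlgebra (qf b)} (hx : x ∈ bgr (bF b) cdeg d) (a : D) :
    x ⊗ₜ[F] a ∈ gB b D d := by
  induction hx using Submodule.span_induction with
  | mem x hx =>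
    obtain ⟨p, hp, rfl⟩ := hx
    rw [← (Module.finBasis F D).sum_repr a, tmul_sum]
    refine Submodule.sum_mem _ fun i _ => ?_
    rw [tmul_smul]
    refine Submodule.smul_mem _ _ ?_
    have : bF b p ⊗ₜ[F] (Module.finBasis F D) i = bB b D (p, i) := by
      simp [bB, Basis.tensorProduct_apply]
    rw [this]
    exact mem_bgr' _ _ hp
  | zero => simp
  | add y y' _ _ h h' => rw [add_tmul]; exact Submodule.add_mem _ h h'
  | smul r y _ h => rw [← smul_tmul']; exact Submodule.smul_mem _ _ h

theorem one_mem_bgr : (1 : CliffordAlgebra (qf b)) ∈ bgr (bF b) cdeg 0 := by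
  rw [← bF_zero_empty]
  exact mem_bgr' _ _ (by simp [cdeg])

theorem gB_gradedMonoid : SetLike.GradedMonoid (gB b D) := by
  let G : Set (CliffordAlgebra (qf b) ⊗[F] D) :=
    ((Set.range fun i => gen b i ⊗ₜ[F] (1 : D)) ∪ Set.range fun k : Fin c =>
      algebraMap (MvPolynomial (Fin c) F) (CliffordAlgebra (qf b)) (X k) ⊗ₜ[F] (1 : D)) ∪
        Set.range fun a : D => (1 : CliffordAlgebra (qf b)) ⊗ₜ[F] a
  refine bgr_gradedMonoid _ _ (tmul_mem_gB b (one_mem_bgr b) 1) G ?_ ?_
  · rw [eq_top_iff]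
    rintro x -
    induction x using TensorProduct.induction_on with
    | zero => exact zero_mem _
    | add x y hx hy => exact add_mem hx hy
    | tmul x a =>
      have h1 : x ⊗ₜ[F] a = (x ⊗ₜ[F] (1 : D)) * ((1 : CliffordAlgebra (qf b)) ⊗ₜ[F] a) := by
        simp
      rw [h1]
      refine mul_mem ?_ (Algebra.subset_adjoin (Or.inr ⟨a, rfl⟩))
      have h2 : x ∈ Algebra.adjoin F (Set.range (gen b) ∪ Set.range fun k : Fin c =>
          algebraMap (MvPolynomial (Fin c) F) (CliffordAlgebra (qf b)) (X k)) :=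
        (adjoin_gen b).symm ▸ Algebra.mem_top
      have h3 := Subalgebra.mem_map.mpr
        ⟨x, h2, (rfl : (Algebra.TensorProduct.includeLeft (R := F) (S := F) (B := D)) x = _)⟩
      rw [AlgHom.map_adjoin] at h3
      refine Algebra.adjoin_mono ?_ h3
      rintro _ ⟨y, hy | hy, rfl⟩
      · obtain ⟨i, rfl⟩ := hy
        exact Or.inl (Or.inl ⟨i, rfl⟩)
      · obtain ⟨i, rfl⟩ := hy
        exact Or.inl (Or.inr ⟨i, rfl⟩)
  · rintro x ((⟨i, rfl⟩ | ⟨k, rfl⟩) | ⟨a, rfl⟩)
    · refine ⟨1, fun p => ?_⟩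
      rw [bB, Basis.tensorProduct_apply', Algebra.TensorProduct.tmul_mul_tmul]
      exact tmul_mem_gB b (gen_mul_bF b i p.1) _
    · refine ⟨2, fun p => ?_⟩
      rw [bB, Basis.tensorProduct_apply', Algebra.TensorProduct.tmul_mul_tmul, ← Algebra.smul_def]
      exact tmul_mem_gB b (X_smul_bF b k p.1) _
    · refine ⟨0, fun p => ?_⟩
      rw [bB, Basis.tensorProduct_apply', Algebra.TensorProduct.tmul_mul_tmul, one_mul, zero_add]
      exact tmul_mem_gB b (mem_bgr _ _ p.1) _

/-- The graded algebra structure. -/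
@[reducible] noncomputable def gBGraded : GradedAlgebra (gB b D) :=
  { gB_gradedMonoid b, bgrDecomposition (bB b D) (fun p => cdeg p.1) with }

theorem finrank_gB (d : ℕ) : FiniteDimensional F (gB b D d) ∧
    finrank F (gB b D d) = finrank F D * (monos c d).card := by
  have := finrank_bgr (bB b D) (fun p => cdeg p.1) d
    (((monos c d).map (pairEquiv c).toEmbedding) ×ˢ Finset.univ) (fun p => by
      simp only [Finset.mem_product, Finset.mem_map_equiv, mem_monos, degree_pairEquiv_symm,
        Finset.mem_univ, and_true])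
  refine ⟨this.1, this.2.trans ?_⟩
  simp [mul_comm]

theorem finite_CB : Module.Finite (MvPolynomial (Fin c) F) (CliffordAlgebra (qf b) ⊗[F] D) :=
  Module.Finite.of_basis ((bZ b).tensorProduct (Module.finBasis F D))

omit [FiniteDimensional F D] in
theorem tf_CB (p : MvPolynomial (Fin c) F) (y : CliffordAlgebra (qf b) ⊗[F] D) (h : p • y = 0) :
    p = 0 ∨ y = 0 := by
  have hfree : Module.Free (MvPolynomial (Fin c) F) (CliffordAlgebra (qf b)) :=
    Module.Free.of_basis (bZ b)
  exact smul_eq_zero.mp h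

theorem nontrivial_CB : Nontrivial (CliffordAlgebra (qf b) ⊗[F] D) := by
  have := (finrank_gB (D := D) b 0).1
  have h : Nontrivial (gB b D 0) := Module.nontrivial_of_finrank_pos (R := F) (by
    rw [(finrank_gB b 0).2, card_monos]; simpa using Module.finrank_pos)
  exact (gB b D 0).injective_subtype.nontrivial

/-- The generators in the tensor product. -/
noncomputable def genB (D : Type*) [DivisionRing D] [Algebra F D] (i : Fin c) :
    CliffordAlgebra (qf b) ⊗[F] D := gen b i ⊗ₜ[F] (1 : D)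

theorem genB_mem (i : Fin c) : genB b D i ∈ gB b D 1 := by
  refine tmul_mem_gB b ?_ 1
  rw [← bF_zero_singleton]
  exact mem_bgr' _ _ (by simp [cdeg])

theorem lam_mem (l : Fin c) :
    algebraMap (MvPolynomial (Fin c) F) (CliffordAlgebra (qf b) ⊗[F] D) (X l) ∈ gB b D 2 := by
  refine tmul_mem_gB b ?_ 1
  have := X_smul_bF b l (0, ∅)
  rw [bF_zero_empty, ← Algebra.algebraMap_eq_smul_one] at this
  simpa [cdeg] using this

theorem incl_mem (a : D) : (Algebra.TensorProduct.includeRight :
    D →ₐ[F] CliffordAlgebra (qf b) ⊗[F] D) a ∈ gB b D 0 := tmul_mem_gB b (one_mem_bgr b) a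

omit [FiniteDimensional F D] in
theorem incl_comm (a : D) (i : Fin c) : (Algebra.TensorProduct.includeRight :
    D →ₐ[F] CliffordAlgebra (qf b) ⊗[F] D) a * genB b D i = genB b D i *
      (Algebra.TensorProduct.includeRight : D →ₐ[F] CliffordAlgebra (qf b) ⊗[F] D) a := by
  simp [genB]

omit [FiniteDimensional F D] in
theorem genB_indep (a : Fin c → D) (h : ∑ l, (Algebra.TensorProduct.includeRight :
    D →ₐ[F] CliffordAlgebra (qf b) ⊗[F] D) (a l) * genB b D l = 0) (i : Fin c) : a i = 0 := by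
  let θ : CliffordAlgebra (qf b) ⊗[F] D →ₗ[F] D := (TensorProduct.lid F D).toLinearMap ∘ₗ
    LinearMap.rTensor D ((bF b).coord (0, {i}))
  have h3 := congrArg θ h
  rw [map_sum, map_zero, Finset.sum_eq_single i] at h3
  · simpa [θ, genB, ← bF_zero_singleton] using h3
  · intro l _ hl
    have : ¬ (({l} : Finset (Fin c)) = {i}) := by simpa using hl
    simp [θ, genB, ← bF_zero_singleton, this]
  · simp

omit [FiniteDimensional F D] in
theorem cliffRel_genB {K : Type*} [Field K] [Algebra K F] (b : Fin c → Fin c → Fin c → K) :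
    CliffRel F b (genB (fun l i j => algebraMap K F (b l i j)) D) := by
  have hsum : ∀ i j, algebraMap (MvPolynomial (Fin c) F)
      (CliffordAlgebra (qf fun l i j => algebraMap K F (b l i j)) ⊗[F] D)
      (∑ l, algebraMap K F (b l i j) • (X l : MvPolynomial (Fin c) F)) =
      ∑ l, b l i j • algebraMap (MvPolynomial (Fin c) F)
        (CliffordAlgebra (qf fun l i j => algebraMap K F (b l i j)) ⊗[F] D) (X l) := by
    intro i j
    rw [map_sum]
    refine Finset.sum_congr rfl fun l _ => ?_
    rw [algebraMap_smul, Algebra.algebraMap_eq_smul_one, Algebra.algebraMap_eq_smul_one,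
      smul_assoc]
  refine ⟨fun i => ?_, fun i j => ?_⟩
  · rw [← hsum, Algebra.TensorProduct.algebraMap_apply, ← gen_sq]
    simp [genB]
  · rw [← hsum, ← hsum, Algebra.TensorProduct.algebraMap_apply,
      Algebra.TensorProduct.algebraMap_apply, ← add_tmul, ← gen_anti]
    simp [genB, add_tmul]

end B

theorem frac_domain {Z B : Type*} [CommRing Z] [IsDomain Z] [Ring B] [Algebra Z B]
    [NoZeroDivisors B] [Nontrivial B] (htf : ∀ (p : Z) (y : B), p • y = 0 → p = 0 ∨ y = 0) :
    Function.Injective (Algebra.TensorProduct.includeRight : B →ₐ[Z] FractionRing Z ⊗[Z] B) ∧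
      IsDomain (FractionRing Z ⊗[Z] B) := by
  let j : B →ₐ[Z] FractionRing Z ⊗[Z] B := Algebra.TensorProduct.includeRight
  have hjinj : Function.Injective j := by
    refine (injective_iff_map_eq_zero _).mpr fun y hy => ?_
    obtain ⟨s, hs⟩ := (IsLocalizedModule.eq_zero_iff (nonZeroDivisors Z)
      (TensorProduct.mk Z (FractionRing Z) B 1)).mp hy
    exact (htf _ _ hs).resolve_left (nonZeroDivisors.ne_zero s.2)
  have hD'nt : Nontrivial (FractionRing Z ⊗[Z] B) := hjinj.nontrivial
  have hsurj : ∀ x : FractionRing Z ⊗[Z] B, ∃ (y : B) (s : Z), s ≠ 0 ∧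
      algebraMap Z (FractionRing Z) s • x = j y := by
    intro x
    obtain ⟨⟨y, s⟩, h⟩ := IsLocalizedModule.surj (nonZeroDivisors Z)
      (TensorProduct.mk Z (FractionRing Z) B 1) x
    exact ⟨y, s, nonZeroDivisors.ne_zero s.2, by rw [algebraMap_smul]; exact h⟩
  have hD'dom : NoZeroDivisors (FractionRing Z ⊗[Z] B) := by
    refine ⟨fun {x x'} h => ?_⟩
    obtain ⟨y, s, hs, hy⟩ := hsurj x
    obtain ⟨y', s', hs', hy'⟩ := hsurj x'
    have h1 : j (y * y') = 0 := by
      rw [map_mul, ← hy, ← hy', smul_mul_smul_comm, h, smul_zero]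
    have h2 : y * y' = 0 := hjinj (by rw [h1, map_zero])
    have hu : ∀ s : Z, s ≠ 0 → algebraMap Z (FractionRing Z) s ≠ 0 := fun s hs =>
      (map_ne_zero_iff _ (IsFractionRing.injective Z (FractionRing Z))).mpr hs
    rcases mul_eq_zero.mp h2 with h3 | h3
    · left
      rw [h3, map_zero] at hy
      exact (smul_eq_zero.mp hy).resolve_left (hu s hs)
    · right
      rw [h3, map_zero] at hy'
      exact (smul_eq_zero.mp hy').resolve_left (hu s' hs')
  exact ⟨hjinj, NoZeroDivisors.to_isDomain _⟩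

/-- A finite dimensional division algebra over an extension field of `K`. -/
structure DivExt (K : Type u) [Field K] where
  F : Type u
  D : Type u
  [fF : Field F]
  [aKF : Algebra K F]
  [dD : DivisionRing D]
  [aFD : Algebra F D]
  [fin : FiniteDimensional F D]

attribute [instance] DivExt.fF DivExt.aKF DivExt.dD DivExt.aFD DivExt.fin

/-- The structure map. -/
def DivExt.κ {K : Type u} [Field K] (E : DivExt K) : K →+* E.D :=
  (algebraMap E.F E.D).comp (algebraMap K E.F)

theorem exists_divExt {K Z B : Type u} [Field K] [CommRing Z] [IsDomain Z] [Ring B] [Algebra Z B]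
    [Algebra K Z] [Algebra K B] [IsScalarTower K Z B] [Module.Finite Z B]
    [NoZeroDivisors B] [Nontrivial B] (htf : ∀ (p : Z) (y : B), p • y = 0 → p = 0 ∨ y = 0) :
    ∃ (E : DivExt K) (j : B →+* E.D), Function.Injective j ∧
      ∀ a, E.κ a = j (algebraMap K B a) := by
  obtain ⟨hj, hdom⟩ := frac_domain htf
  let dD' : DivisionRing (FractionRing Z ⊗[Z] B) :=
    divisionRingOfFiniteDimensional (FractionRing Z) _
  refine ⟨{ F := FractionRing Z, D := FractionRing Z ⊗[Z] B },
    (Algebra.TensorProduct.includeRight : B →ₐ[Z] FractionRing Z ⊗[Z] B), hj, fun a => ?_⟩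
  change algebraMap (FractionRing Z) (FractionRing Z ⊗[Z] B) (algebraMap K (FractionRing Z) a) =
    (Algebra.TensorProduct.includeRight : B →ₐ[Z] FractionRing Z ⊗[Z] B) (algebraMap K B a)
  rw [IsScalarTower.algebraMap_apply K Z (FractionRing Z),
    ← IsScalarTower.algebraMap_apply Z (FractionRing Z),
    IsScalarTower.algebraMap_apply K Z B, AlgHom.commutes]

theorem exists_step_aux {K F D B : Type u} {S : Type*} [Field K] [CommRing S] [Algebra K S]
    {𝒮 : ℕ → Submodule K S} [GradedAlgebra 𝒮] {c : ℕ} (q : QuadData K S 𝒮 c)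
    [Field F] [Algebra K F] [DivisionRing D] [Algebra F D]
    [Ring B] [Algebra (MvPolynomial (Fin c) F) B] [Algebra F B] [Algebra K B]
    [IsScalarTower K F B] [IsScalarTower K (MvPolynomial (Fin c) F) B]
    [Module.Finite (MvPolynomial (Fin c) F) B] [NoZeroDivisors B] [Nontrivial B]
    (htf : ∀ (p : MvPolynomial (Fin c) F) (y : B), p • y = 0 → p = 0 ∨ y = 0)
    (ι : D →ₐ[F] B) (e : Fin c → B) (he : CliffRel F q.b e)
    (hc : ∀ a i, ι a * e i = e i * ι a)
    (hind : ∀ a : Fin c → D, ∑ j, ι (a j) * e j = 0 → ∀ j, a j = 0) :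
    ∃ (E' : DivExt K) (φ : D →+* E'.D) (e lam : Fin c → E'.D),
      (∀ a, φ (algebraMap F D (algebraMap K F a)) = E'.κ a) ∧ (∀ j a, φ a * e j = e j * φ a) ∧
      (∀ i, e i * e i = ∑ l, lam l * E'.κ (q.b l i i)) ∧
      (∀ i j, e i * e j + e j * e i =
        ∑ l, lam l * E'.κ (q.b l i j) + ∑ l, lam l * E'.κ (q.b l j i)) ∧
      (∀ a : Fin c → D, ∑ j, φ (a j) * e j = 0 → ∀ j, a j = 0) := by
  obtain ⟨E', j, hj, hκ⟩ := exists_divExt (K := K) htf
  refine ⟨E', j.comp (ι : D →+* B), fun i => j (e i),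
    fun l => j (algebraMap (MvPolynomial (Fin c) F) B (X l)), fun a => ?_, fun i a => ?_,
    fun i => ?_, fun i i' => ?_, fun a ha => ?_⟩
  · rw [hκ]
    change j (ι (algebraMap F D (algebraMap K F a))) = _
    rw [AlgHom.commutes, ← IsScalarTower.algebraMap_apply]
  · change j (ι a) * j (e i) = j (e i) * j (ι a)
    rw [← map_mul, ← map_mul, hc]
  · rw [← map_mul, he.sq, map_sum]
    refine Finset.sum_congr rfl fun l _ => ?_
    rw [hκ, ← map_mul, ← Algebra.commutes, ← Algebra.smul_def]
  · rw [← map_mul, ← map_mul, ← map_add, he.anti, map_add, map_sum, map_sum]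
    congr 1 <;> refine Finset.sum_congr rfl fun l _ => ?_ <;>
      rw [hκ, ← map_mul, ← Algebra.commutes, ← Algebra.smul_def]
  · refine hind a (hj ?_)
    rw [map_sum, map_zero]
    simp only [map_mul]
    exact ha

theorem exists_step {K : Type u} {S : Type*} [Field K] [CommRing S] [Algebra K S]
    {𝒮 : ℕ → Submodule K S} [GradedAlgebra 𝒮] {k : ℕ} (q : QuadData K S 𝒮 (k + 1))
    (E : DivExt K) :
    ∃ (E' : DivExt K) (φ : E.D →+* E'.D) (e lam : Fin (k + 1) → E'.D),
      (∀ a, φ (E.κ a) = E'.κ a) ∧ (∀ j a, φ a * e j = e j * φ a) ∧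
      (∀ i, e i * e i = ∑ l, lam l * E'.κ (q.b l i i)) ∧
      (∀ i j, e i * e j + e j * e i =
        ∑ l, lam l * E'.κ (q.b l i j) + ∑ l, lam l * E'.κ (q.b l j i)) ∧
      (∀ a : Fin (k + 1) → E.D, ∑ j, φ (a j) * e j = 0 → ∀ j, a j = 0) := by
  let b : Fin (k + 1) → Fin (k + 1) → Fin (k + 1) → E.F :=
    fun l i j => algebraMap K E.F (q.b l i j)
  let := gBGraded (D := E.D) b
  have := finite_CB (D := E.D) b
  have := nontrivial_CB (D := E.D) b
  have hdom : NoZeroDivisors (CliffordAlgebra (qf b) ⊗[E.F] E.D) :=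
    noZeroDivisors_cliff (gB b E.D) q (cliffRel_genB q.b) (genB_mem b) (lam_mem b)
      Algebra.TensorProduct.includeRight (incl_mem b) (fun d => (finrank_gB b d).1)
      (fun d => by
        rw [(finrank_gB b d).2, card_monos, show k + 1 + d - 1 = d + k by omega,
          Nat.choose_symm_add]) (tf_CB b)
  exact exists_step_aux q (tf_CB b) Algebra.TensorProduct.includeRight (genB b E.D)
    (cliffRel_genB q.b) (incl_comm b) (genB_indep b)

end Vale.Agent.P200
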