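import Mathlib
import Vale.Agent.P200.Step

/-! The tower of division rings. -/

namespace Vale.Agent.P200

open Module MvPolynomial TensorProduct

universe u

/-- The properties of the coefficients after `s` steps. -/
structure TowerProp {K D : Type*} [Field K] [Ring D] {c : ℕ} (κ : K →+* D)
    (b : Fin c → Fin c → Fin c → K) (s : ℕ) (e lam : ℕ → Fin c → D) : Prop where
  comm : ∀ i < s, ∀ i' < s, i ≠ i' → ∀ j j', e i j * e i' j' = e i' j' * e i j
  sq : ∀ i < s, ∀ j, e i j * e i j = ∑ l, lam i l * κ (b l j j)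
  anti : ∀ i < s, ∀ j j', e i j * e i j' + e i j' * e i j =
    ∑ l, lam i l * κ (b l j j') + ∑ l, lam i l * κ (b l j' j)
  indep : ∀ i < s, ∀ a : Fin c → D,
    (∀ j, a j ∈ Subring.closure (Set.range κ ∪ {x | ∃ i' < i, ∃ j', x = e i' j'})) →
      ∑ j, a j * e i j = 0 → ∀ j, a j = 0

theorem exists_tower {K : Type u} {S : Type*} [Field K] [CommRing S] [Algebra K S]
    {𝒮 : ℕ → Submodule K S} [GradedAlgebra 𝒮] {k : ℕ} (q : QuadData K S 𝒮 (k + 1)) (s : ℕ) :
    ∃ (E : DivExt K) (e lam : ℕ → Fin (k + 1) → E.D), TowerProp E.κ q.b s e lam := by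
  induction s with
  | zero =>
    exact ⟨{ F := K, D := K }, 0, 0, ⟨by simp, by simp, by simp, by simp⟩⟩
  | succ s ih =>
    obtain ⟨E, e, lam, h⟩ := ih
    obtain ⟨E', φ, e₁, lam₁, h1, h2, h3, h4, h5⟩ := exists_step q E
    let e' : ℕ → Fin (k + 1) → E'.D := fun i j => if i = s then e₁ j else φ (e i j)
    let lam' : ℕ → Fin (k + 1) → E'.D := fun i j => if i = s then lam₁ j else φ (lam i j)
    have he1 : ∀ j, e' s j = e₁ j := fun j => if_pos rfl
    have he2 : ∀ i < s, ∀ j, e' i j = φ (e i j) := fun i hi j => if_neg hi.ne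
    have hl1 : ∀ j, lam' s j = lam₁ j := fun j => if_pos rfl
    have hl2 : ∀ i < s, ∀ j, lam' i j = φ (lam i j) := fun i hi j => if_neg hi.ne
    have hclos : ∀ i ≤ s, ∀ x ∈ Subring.closure
        (Set.range E'.κ ∪ {x | ∃ i' < i, ∃ j', x = e' i' j'}),
        ∃ y ∈ Subring.closure (Set.range E.κ ∪ {x | ∃ i' < i, ∃ j', x = e i' j'}), φ y = x := by
      intro i hi x hx
      rw [← Subring.mem_map, RingHom.map_closure]
      refine Subring.closure_mono ?_ hx
      rintro x (⟨a, rfl⟩ | ⟨i', hi', j', rfl⟩)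
      · exact ⟨E.κ a, Or.inl ⟨a, rfl⟩, h1 a⟩
      · exact ⟨e i' j', Or.inr ⟨i', hi', j', rfl⟩, (he2 i' (by omega) j').symm⟩
    refine ⟨E', e', lam', ⟨fun i hi i' hi' hne j j' => ?_, fun i hi j => ?_,
      fun i hi j j' => ?_, fun i hi a ha h0 => ?_⟩⟩
    · rcases Nat.lt_succ_iff_lt_or_eq.mp hi with hi | rfl
      · rcases Nat.lt_succ_iff_lt_or_eq.mp hi' with hi' | rfl
        · rw [he2 i hi, he2 i' hi', ← map_mul, ← map_mul, h.comm i hi i' hi' hne]
        · rw [he2 i hi, he1, h2]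
      · rcases Nat.lt_succ_iff_lt_or_eq.mp hi' with hi' | rfl
        · rw [he2 i' hi', he1, h2]
        · exact absurd rfl hne
    · rcases Nat.lt_succ_iff_lt_or_eq.mp hi with hi | rfl
      · simp only [he2 i hi, hl2 i hi, ← h1, ← map_mul, ← map_sum, h.sq i hi]
      · simp only [he1, hl1, h3]
    · rcases Nat.lt_succ_iff_lt_or_eq.mp hi with hi | rfl
      · simp only [he2 i hi, hl2 i hi, ← h1, ← map_mul, ← map_sum, ← map_add, h.anti i hi]
      · simp only [he1, hl1, h4]
    · choose y hy1 hy2 using fun j => hclos i (by omega) (a j) (ha j)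
      rcases Nat.lt_succ_iff_lt_or_eq.mp hi with hi | rfl
      · intro j
        have h6 : ∑ j, y j * e i j = 0 := by
          apply φ.injective
          rw [map_sum, map_zero, ← h0]
          exact Finset.sum_congr rfl fun j _ => by rw [map_mul, hy2, he2 i hi]
        rw [← hy2, h.indep i hi y hy1 h6 j, map_zero]
      · intro j
        have h6 : ∑ j, φ (y j) * e₁ j = 0 := by
          rw [← h0]
          exact Finset.sum_congr rfl fun j _ => by rw [hy2, he1]
        rw [← hy2, h5 y h6 j, map_zero]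

end Vale.Agent.P200
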