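import Mathlib
import Vale.Agent.P200.Initial
import Vale.Agent.P200.Tower

/-! The commuting linear forms span, and the monomial ideal obtained from them. -/

namespace Vale.Agent.P200

open Module MvPolynomial TensorProduct

section Ev

variable {K D S : Type*} [Field K] [DivisionRing D] [Algebra K D] [CommRing S] [Algebra K S]

/-- Evaluation of a functional on the second factor. -/
noncomputable def ev (φ : S →ₗ[K] K) : D ⊗[K] S →ₗ[D] D :=
  (AlgebraTensorModule.rid K D D).toLinearMap ∘ₗ φ.baseChange D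

theorem ev_tmul (φ : S →ₗ[K] K) (a : D) (s : S) : ev φ (a ⊗ₜ[K] s) = φ s • a := by
  simp [ev]

theorem ev_mul_tmul (φ : S →ₗ[K] K) (x : D ⊗[K] S) (a : D) (s : S) :
    ev φ (x * (a ⊗ₜ[K] s)) = ev (φ ∘ₗ LinearMap.mulRight K s) x * a := by
  induction x using TensorProduct.induction_on with
  | zero => simp
  | tmul b t => simp [ev_tmul]
  | add x x' h h' => rw [add_mul, map_add, h, h', map_add, add_mul]

theorem ev_eq_zero (φ : S →ₗ[K] K) (A : Submodule K S) (hφ : ∀ s ∈ A, φ s = 0)
    {x : D ⊗[K] S} (hx : x ∈ A.baseChange D) : ev φ x = 0 := by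
  obtain ⟨x, rfl⟩ := hx
  induction x using TensorProduct.induction_on with
  | zero => simp
  | tmul b t => simp [ev_tmul, hφ _ t.2]
  | add x x' h h' => rw [map_add, map_add, h, h', add_zero]

theorem ev_prod {c : ℕ} (z : Fin c → S) (e : ℕ → Fin c → D) (N : ℕ)
    (indep : ∀ i < N, ∀ a : Fin c → D,
      (∀ j, a j ∈ Subring.closure (Set.range (algebraMap K D) ∪ {x | ∃ i' < i, ∃ j', x = e i' j'})) →
        ∑ j, a j * e i j = 0 → ∀ j, a j = 0)
    (P : ℕ → D ⊗[K] S) (hP0 : P 0 = 1) (hP : ∀ s, P (s + 1) = P s * ∑ j, e s j ⊗ₜ[K] z j) :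
    ∀ s ≤ N, ∀ φ : S →ₗ[K] K, ev φ (P s) ∈
      Subring.closure (Set.range (algebraMap K D) ∪ {x | ∃ i' < s, ∃ j', x = e i' j'}) ∧
      (ev φ (P s) = 0 → ∀ x ∈ (Submodule.span K (Set.range z)) ^ s, φ x = 0) := by
  intro s
  induction s with
  | zero =>
    intro _ φ
    have h1 : ev φ (P 0) = algebraMap K D (φ 1) := by
      rw [hP0, Algebra.TensorProduct.one_def, ev_tmul, Algebra.algebraMap_eq_smul_one]
    rw [h1]
    refine ⟨Subring.subset_closure (Or.inl ⟨_, rfl⟩), fun h x hx => ?_⟩
    rw [pow_zero, Submodule.mem_one] at hx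
    obtain ⟨a, rfl⟩ := hx
    rw [Algebra.algebraMap_eq_smul_one, map_smul, (map_eq_zero _).mp h, smul_zero]
  | succ s ih =>
    intro hs φ
    have h1 : ev φ (P (s + 1)) = ∑ j, ev (φ ∘ₗ LinearMap.mulRight K (z j)) (P s) * e s j := by
      rw [hP, Finset.mul_sum, map_sum]
      exact Finset.sum_congr rfl fun j _ => ev_mul_tmul _ _ _ _
    rw [h1]
    refine ⟨Subring.sum_mem _ fun j _ => Subring.mul_mem _ ?_ ?_, fun h x hx => ?_⟩
    · refine Subring.closure_mono ?_ (ih (by omega) _).1
      rintro x (hx | ⟨i', hi', j', rfl⟩)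
      · exact Or.inl hx
      · exact Or.inr ⟨i', by omega, j', rfl⟩
    · exact Subring.subset_closure (Or.inr ⟨s, by omega, j, rfl⟩)
    · have h2 := indep s (by omega) _ (fun j => (ih (by omega) _).1) h
      rw [pow_succ] at hx
      refine Submodule.mul_induction_on hx (fun p hp w hw => ?_) (fun x y hx hy => ?_)
      · induction hw using Submodule.span_induction with
        | mem w hw =>
          obtain ⟨j, rfl⟩ := hw
          exact (ih (by omega) _).2 (h2 j) p hp
        | zero => simp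
        | add w w' _ _ h h' => rw [mul_add, map_add, h, h', add_zero]
        | smul a w _ h => rw [mul_smul_comm, map_smul, h, smul_zero]
      · rw [map_add, hx, hy, add_zero]

theorem baseChange_top_mem (x : D ⊗[K] S) : x ∈ (⊤ : Submodule K S).baseChange D := by
  rw [Submodule.baseChange_top]; trivial

theorem tower_indep {c : ℕ} (z : Fin c → S) (e : ℕ → Fin c → D)
    (indep : ∀ i < c, ∀ a : Fin c → D,
      (∀ j, a j ∈ Subring.closure (Set.range (algebraMap K D) ∪ {x | ∃ i' < i, ∃ j', x = e i' j'})) →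
        ∑ j, a j * e i j = 0 → ∀ j, a j = 0)
    (t : ℕ → D ⊗[K] S) (ht : ∀ s, t s = ∑ j, e s j ⊗ₜ[K] z j)
    (hcomm : ∀ i < c, ∀ i' < c, Commute (t i) (t i')) (A : Ideal S)
    (hsq : ∀ i < c, t i * t i ∈ (A.restrictScalars K).baseChange D)
    (hA : ¬ (Submodule.span K (Set.range z)) ^ c ≤ A.restrictScalars K) :
    LinearIndependent D fun i : Fin c => t i := by
  rw [Fintype.linearIndependent_iff]
  intro g hg i₀
  by_contra hne
  apply hA
  let P : ℕ → D ⊗[K] S := fun s => ((List.range s).map t).prod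
  have hperm : ∀ l l' : List ℕ, (∀ i ∈ l, i < c) → l.Perm l' → (l.map t).prod = (l'.map t).prod := by
    intro l l' hl hp
    refine (hp.map t).prod_eq' ?_
    rw [List.pairwise_map]
    exact List.pairwise_of_forall_mem_list fun i hi i' hi' => hcomm i (hl i hi) i' (hl i' hi')
  let L := (List.range c).erase i₀
  have hL : ∀ i ∈ L, i < c := fun i hi => List.mem_range.mp (List.mem_of_mem_erase hi)
  have h1 : P c = t i₀ * (L.map t).prod := by
    have := hperm _ _ (fun i hi => List.mem_range.mp hi)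
      (List.perm_cons_erase (List.mem_range.mpr i₀.2))
    simpa using this
  have h2 : ∀ i : Fin c, i ≠ i₀ → t i * (L.map t).prod ∈ (A.restrictScalars K).baseChange D := by
    intro i hi
    have hi' : (i : ℕ) ∈ L :=
      (List.mem_erase_of_ne (fun h => hi (Fin.ext h))).mpr (List.mem_range.mpr i.2)
    rw [hperm _ _ hL (List.perm_cons_erase hi'), List.map_cons, List.prod_cons, ← mul_assoc]
    exact mul_mem_baseChange (Q := ⊤) (fun p hp q _ => A.mul_mem_right _ hp) (hsq i i.2)
      (baseChange_top_mem _)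
  have h3 : P c ∈ (A.restrictScalars K).baseChange D := by
    have h4 := congrArg (rmul (L.map t).prod) hg
    rw [map_sum, map_zero, ← Finset.add_sum_erase _ _ (Finset.mem_univ i₀),
      add_eq_zero_iff_eq_neg] at h4
    have h5 : rmul (L.map t).prod (g i₀ • t i₀) ∈ (A.restrictScalars K).baseChange D := by
      rw [h4]
      refine Submodule.neg_mem _ (Submodule.sum_mem _ fun i hi => ?_)
      rw [map_smul]
      exact Submodule.smul_mem _ _ (h2 i (Finset.ne_of_mem_erase hi))
    rw [map_smul, Submodule.smul_mem_iff _ hne] at h5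
    rw [h1]
    exact h5
  intro x hx
  by_contra hxA
  obtain ⟨φ, hφ1, hφ2⟩ := Submodule.exists_dual_map_eq_bot_of_notMem hxA inferInstance
  refine hφ1 ((ev_prod z e c indep P (by simp [P]) (fun s => ?_) c le_rfl φ).2 ?_ x hx)
  · simp only [P]
    rw [List.range_succ, List.map_append, List.prod_append, ← ht s]
    simp
  · refine ev_eq_zero φ _ (fun s hs => ?_) h3
    have := Submodule.mem_map_of_mem (f := φ) hs
    rwa [hφ2, Submodule.mem_bot] at this

theorem tower_comm {c : ℕ} (z : Fin c → S) {b : Fin c → Fin c → Fin c → K} {N : ℕ}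
    {e lam : ℕ → Fin c → D} (h : TowerProp (algebraMap K D) b N e lam) (i : ℕ) (hi : i < N)
    (i' : ℕ) (hi' : i' < N) :
    Commute (∑ j, e i j ⊗ₜ[K] z j) (∑ j, e i' j ⊗ₜ[K] z j) := by
  by_cases hne : i = i'
  · rw [hne]
  refine Commute.sum_left _ _ _ fun j _ => Commute.sum_right _ _ _ fun j' _ => ?_
  change _ * _ = _ * _
  rw [Algebra.TensorProduct.tmul_mul_tmul, Algebra.TensorProduct.tmul_mul_tmul,
    h.comm i hi i' hi' hne, mul_comm (z j)]

theorem tower_sq {c : ℕ} (z : Fin c → S) {b : Fin c → Fin c → Fin c → K} {N : ℕ}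
    {e lam : ℕ → Fin c → D} (h : TowerProp (algebraMap K D) b N e lam) (i : ℕ) (hi : i < N) :
    (∑ j, e i j ⊗ₜ[K] z j) * (∑ j, e i j ⊗ₜ[K] z j) =
      ∑ l, lam i l ⊗ₜ[K] (∑ j, ∑ j', b l j j' • (z j * z j')) := by
  have h0 := sum_sum_eq_zero_of_alt (fun j j' => (e i j * e i j' -
    ∑ l, lam i l * algebraMap K D (b l j j')) ⊗ₜ[K] (z j * z j'))
    (fun j => by rw [h.sq i hi j, sub_self, zero_tmul])
    (fun j j' => by
      rw [mul_comm (z j') (z j), ← add_tmul]
      have := h.anti i hi j j'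
      rw [show e i j * e i j' - ∑ l, lam i l * algebraMap K D (b l j j') +
        (e i j' * e i j - ∑ l, lam i l * algebraMap K D (b l j' j)) =
        (e i j * e i j' + e i j' * e i j) - (∑ l, lam i l * algebraMap K D (b l j j') +
          ∑ l, lam i l * algebraMap K D (b l j' j)) by abel, this, sub_self, zero_tmul])
  simp only [sub_tmul, Finset.sum_sub_distrib, sub_eq_zero] at h0
  rw [Finset.sum_mul_sum]
  simp only [Algebra.TensorProduct.tmul_mul_tmul]
  rw [h0]
  simp only [sum_tmul, tmul_sum, tmul_smul]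
  rw [Finset.sum_comm]
  refine (Finset.sum_congr rfl fun j _ => Finset.sum_comm).trans ?_
  rw [Finset.sum_comm]
  refine Finset.sum_congr rfl fun l _ => ?_
  rw [Finset.sum_comm]
  refine Finset.sum_congr rfl fun j _ => Finset.sum_congr rfl fun j' _ => ?_
  rw [← Algebra.commutes, ← Algebra.smul_def, smul_tmul']

theorem one_tmul_mem_span_tower {c : ℕ} (z : Fin c → S) {b : Fin c → Fin c → Fin c → K}
    {e lam : ℕ → Fin c → D} (h : TowerProp (algebraMap K D) b c e lam) (A : Ideal S)
    (hg : ∀ l, (∑ j, ∑ j', b l j j' • (z j * z j')) ∈ A)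
    (hA : ¬ (Submodule.span K (Set.range z)) ^ c ≤ A.restrictScalars K) (j : Fin c) :
    (1 : D) ⊗ₜ[K] z j ∈
      Submodule.span D (Set.range fun i : Fin c => ∑ j, e i j ⊗ₜ[K] z j) := by
  have h1 := tower_indep z e h.indep (fun s => ∑ j, e s j ⊗ₜ[K] z j) (fun _ => rfl)
    (tower_comm z h) A (fun i hi => by
      rw [tower_sq z h i hi]
      exact Submodule.sum_mem _ fun l _ => Submodule.tmul_mem_baseChange_of_mem _ (hg l)) hA
  have h2 : Submodule.span D (Set.range fun i : Fin c => ∑ j, e i j ⊗ₜ[K] z j) ≤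
      Submodule.span D (Set.range fun j : Fin c => (1 : D) ⊗ₜ[K] z j) := by
    rw [Submodule.span_le]
    rintro _ ⟨i, rfl⟩
    refine Submodule.sum_mem _ fun j _ => ?_
    rw [show e i j ⊗ₜ[K] z j = e i j • ((1 : D) ⊗ₜ[K] z j) by simp [smul_tmul']]
    exact Submodule.smul_mem _ _ (Submodule.subset_span ⟨j, rfl⟩)
  have : FiniteDimensional D
      (Submodule.span D (Set.range fun j : Fin c => (1 : D) ⊗ₜ[K] z j)) :=
    FiniteDimensional.span_of_finite D (Set.finite_range _)
  rw [Submodule.eq_of_le_of_finrank_le h2 (by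
    rw [finrank_span_eq_card h1]; exact finrank_range_le_card _)]
  exact Submodule.subset_span ⟨j, rfl⟩

end Ev

theorem colex_lt {c r : ℕ} (i : Fin c) (j : Fin r) (δ : Fin (c + r) →₀ ℕ) :
    toColex (Finsupp.single (Fin.castAdd r i) 2) <
      toColex (δ + Finsupp.single (Fin.natAdd c j) 1) := by
  refine lt_of_lt_of_le ?_ (Finsupp.toColex_monotone (le_add_self :
    Finsupp.single (Fin.natAdd c j) 1 ≤ δ + Finsupp.single (Fin.natAdd c j) 1))
  rw [Finsupp.Colex.lt_iff]
  have hlt : Fin.castAdd r i < Fin.natAdd c j := by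
    rw [Fin.lt_def]; simp; omega
  refine ⟨Fin.natAdd c j, fun k hk => ?_, ?_⟩
  · simp only [ofColex_toColex]
    rw [Finsupp.single_eq_of_ne (hlt.trans hk).ne', Finsupp.single_eq_of_ne hk.ne']
  · simp only [ofColex_toColex]
    rw [Finsupp.single_eq_of_ne hlt.ne', Finsupp.single_eq_same]
    exact zero_lt_one

open Classical in
theorem exists_monomials_of_tower {K D : Type*} [Field K] [DivisionRing D] [Algebra K D]
    {c r : ℕ} (z : Fin c → MvPolynomial (Fin (c + r)) K) (l : Fin r → MvPolynomial (Fin (c + r)) K)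
    {b : Fin c → Fin c → Fin c → K} {e lam : ℕ → Fin c → D}
    (h : TowerProp (algebraMap K D) b c e lam) (A : Ideal (MvPolynomial (Fin (c + r)) K))
    (hz : ∀ j, z j ∈ homogeneousSubmodule (Fin (c + r)) K 1)
    (hl : ∀ j, l j ∈ homogeneousSubmodule (Fin (c + r)) K 1)
    (hg : ∀ k, (∑ j, ∑ j', b k j j' • (z j * z j')) ∈ A)
    (hA : ¬ (Submodule.span K (Set.range z)) ^ c ≤ A.restrictScalars K)
    (hspan : homogeneousSubmodule (Fin (c + r)) K 1 ≤
      Submodule.span K (Set.range z) ⊔ Submodule.span K (Set.range l))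
    (I : Ideal (MvPolynomial (Fin (c + r)) K))
    (hI : ∀ k, (∑ j, ∑ j', b k j j' • (z j * z j')) ∈ idealDeg I 2 ⊔
      homogeneousSubmodule (Fin (c + r)) K 1 * Submodule.span K (Set.range l)) :
    ∃ 𝓜 : Set (Fin (c + r) →₀ ℕ), IsUpperSet 𝓜 ∧
      (∀ d, ((monos (c + r) d).filter (· ∈ 𝓜)).card = finrank K (idealDeg I d)) ∧
      ∀ i : Fin c, Finsupp.single (Fin.castAdd r i) 2 ∈ 𝓜 := by
  let t : Fin c → D ⊗[K] MvPolynomial (Fin (c + r)) K := fun i => ∑ j, e i j ⊗ₜ[K] z j
  let y : Fin (c + r) → D ⊗[K] MvPolynomial (Fin (c + r)) K :=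
    Fin.append t fun j => (1 : D) ⊗ₜ[K] l j
  have hy1 : ∀ i, y (Fin.castAdd r i) = t i := fun i => Fin.append_left _ _ i
  have hy2 : ∀ j, y (Fin.natAdd c j) = (1 : D) ⊗ₜ[K] l j := fun j => Fin.append_right _ _ j
  have hcen : ∀ (s : MvPolynomial (Fin (c + r)) K) (x : D ⊗[K] MvPolynomial (Fin (c + r)) K),
      ((1 : D) ⊗ₜ[K] s) * x = x * ((1 : D) ⊗ₜ[K] s) := by
    intro s x
    induction x using TensorProduct.induction_on with
    | zero => simp
    | tmul a p => simp [mul_comm]
    | add x x' h h' => rw [mul_add, add_mul, h, h']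
  have hcomm : ∀ i j, y i * y j = y j * y i := by
    intro i j
    induction i using Fin.addCases with
    | right i => rw [hy2, hcen]
    | left i =>
      induction j using Fin.addCases with
      | right j => rw [hy2, hcen]
      | left j => rw [hy1, hy1]; exact tower_comm z h i i.2 j j.2
  have hymem : ∀ i, y i ∈ (homogeneousSubmodule (Fin (c + r)) K 1).baseChange D := by
    intro i
    induction i using Fin.addCases with
    | right i => rw [hy2]; exact Submodule.tmul_mem_baseChange_of_mem _ (hl i)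
    | left i =>
      rw [hy1]
      exact Submodule.sum_mem _ fun j _ => Submodule.tmul_mem_baseChange_of_mem _ (hz j)
  have hyspan : ∀ j, (1 : D) ⊗ₜ[K] (X j : MvPolynomial (Fin (c + r)) K) ∈
      Submodule.span D (Set.range y) := by
    intro j
    have h1 := hspan (isHomogeneous_X K j)
    rw [← Submodule.span_union] at h1
    generalize (X j : MvPolynomial (Fin (c + r)) K) = x at h1
    induction h1 using Submodule.span_induction with
    | mem x hx =>
      rcases hx with ⟨j, rfl⟩ | ⟨j, rfl⟩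
      · refine Submodule.span_mono ?_ (one_tmul_mem_span_tower z h A hg hA j)
        rintro _ ⟨i, rfl⟩
        exact ⟨_, hy1 i⟩
      · exact Submodule.subset_span ⟨_, hy2 j⟩
    | zero => simp
    | add x x' _ _ h h' => rw [tmul_add]; exact Submodule.add_mem _ h h'
    | smul a x _ h => rw [tmul_smul]; exact Submodule.smul_of_tower_mem _ _ h
  obtain ⟨m, hm0, hm⟩ := exists_monomial_map y hcomm
  obtain ⟨𝓜, h1, h2, h3⟩ := exists_initial y hymem hyspan m hm0 hm I
  refine ⟨𝓜, h1, h2, fun i => h3 _ ?_⟩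
  have h4 : m (Finsupp.single (Fin.castAdd r i) 2) = t i * t i := by
    rw [show (2 : ℕ) = 1 + 1 from rfl, Finsupp.single_add, hm,
      ← zero_add (Finsupp.single (Fin.castAdd r i) 1), hm, hm0, one_mul, hy1]
  rw [h4, Finsupp.degree_single, tower_sq z h i i.2]
  refine Submodule.sum_mem _ fun k _ => ?_
  obtain ⟨p, hp, w, hw, hpw⟩ := Submodule.mem_sup.mp (hI k)
  rw [← hpw, tmul_add]
  refine Submodule.add_mem_sup (Submodule.tmul_mem_baseChange_of_mem _ hp) ?_
  rw [show lam i k ⊗ₜ[K] w = lam i k • ((1 : D) ⊗ₜ[K] w) by simp [smul_tmul']]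
  refine Submodule.smul_mem _ _ ?_
  clear hpw
  refine Submodule.mul_induction_on hw (fun x hx u hu => ?_) (fun x y hx hy => ?_)
  · induction hu using Submodule.span_induction with
    | mem u hu =>
      obtain ⟨j, rfl⟩ := hu
      have h5 := Submodule.mem_map_of_mem (f := rmul (y (Fin.natAdd c j)))
        (one_tmul_mem_span_monos y hyspan m hm0 hm 1 x hx)
      rw [Submodule.map_span] at h5
      have h6 : rmul (y (Fin.natAdd c j)) ((1 : D) ⊗ₜ[K] x) = (1 : D) ⊗ₜ[K] (x * l j) := by
        rw [hy2]; simp [rmul]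
      rw [← h6]
      refine Submodule.span_mono ?_ h5
      rintro _ ⟨_, ⟨δ, hδ, rfl⟩, rfl⟩
      refine ⟨δ + Finsupp.single (Fin.natAdd c j) 1, ⟨?_, colex_lt i j δ⟩, hm δ _⟩
      rw [Finset.mem_coe, mem_monos] at hδ
      rw [mem_monos, map_add, hδ, Finsupp.degree_single]
    | zero => simp
    | add u u' _ _ h h' => rw [mul_add, tmul_add]; exact Submodule.add_mem _ h h'
    | smul a u _ h => rw [mul_smul_comm, tmul_smul]; exact Submodule.smul_of_tower_mem _ _ h
  · rw [tmul_add]; exact Submodule.add_mem _ hx hy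

end Vale.Agent.P200
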