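import Mathlib
import Vale.Agent.P200.Hilbert
import Vale.Agent.P200.RegSeq
import Vale.Agent.P200.Span

/-! The case of an infinite ground field. -/

namespace Vale.Agent.P200

open Module RingTheory.Sequence

universe u

section Graded

variable {K S : Type*} [Field K] [CommRing S] [Algebra K S] (𝒮 : ℕ → Submodule K S)
  [GradedAlgebra 𝒮]

theorem finrank_quot_eq_choose [∀ j, FiniteDimensional K (𝒮 j)] {c r : ℕ}
    (hH : (PowerSeries.mk fun j => (finrank K (𝒮 j) : ℤ)) * (1 - PowerSeries.X) ^ (c + r) = 1)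
    (f : Fin c → S) (l : Fin r → S) (hf : ∀ k, f k ∈ 𝒮 2) (hl : ∀ j, l j ∈ 𝒮 1)
    (hreg : IsWeaklyRegular S (List.ofFn f ++ List.ofFn l)) (j : ℕ) :
    finrank K (S ⧸ Wd 𝒮 (Ideal.ofList (List.ofFn f ++ List.ofFn l)) j) = c.choose j := by
  have hf' : ∀ x ∈ List.ofFn f, x ∈ 𝒮 2 := fun x hx => by
    obtain ⟨k, rfl⟩ := List.mem_ofFn.mp hx; exact hf k
  have hl' : ∀ x ∈ List.ofFn l, x ∈ 𝒮 1 := fun x hx => by
    obtain ⟨k, rfl⟩ := List.mem_ofFn.mp hx; exact hl k
  have h1 := hser_append 𝒮 (fun x hx => ⟨2, hf' x hx⟩) _ hl' hreg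
  have h2 := hser_append 𝒮 (rs₀ := []) (by simp) _ hf'
    (by simpa using ((isWeaklyRegular_append_iff _ _ _).mp hreg).1)
  rw [List.nil_append, Ideal.ofList_nil, hser_bot] at h2
  rw [h2, List.length_ofFn, List.length_ofFn] at h1
  have h3 : hser 𝒮 (Ideal.ofList (List.ofFn f ++ List.ofFn l)) = (1 + PowerSeries.X) ^ c := by
    rw [h1, show (1 - PowerSeries.X ^ 2 : PowerSeries ℤ) =
      (1 + PowerSeries.X) * (1 - PowerSeries.X) by ring, mul_pow, pow_one]
    rw [pow_add] at hH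
    linear_combination (1 + PowerSeries.X) ^ c * hH
  have h4 := congrArg (PowerSeries.coeff j) h3
  have h5 : ((1 + PowerSeries.X) ^ c : PowerSeries ℤ) =
      (((1 + Polynomial.X) ^ c : Polynomial ℤ) : PowerSeries ℤ) := by simp
  rw [h5, Polynomial.coeff_coe, Polynomial.coeff_one_add_X_pow, hser, PowerSeries.coeff_mk] at h4
  exact_mod_cast h4

theorem exists_quadData [∀ j, FiniteDimensional K (𝒮 j)] {c r : ℕ} (hpow : ∀ d, 𝒮 d = 𝒮 1 ^ d)
    (hH : (PowerSeries.mk fun j => (finrank K (𝒮 j) : ℤ)) * (1 - PowerSeries.X) ^ (c + r) = 1)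
    (f : Fin c → S) (l : Fin r → S) (hf : ∀ k, f k ∈ 𝒮 2) (hl : ∀ j, l j ∈ 𝒮 1)
    (hreg : IsWeaklyRegular S (List.ofFn f ++ List.ofFn l)) :
    ∃ q : QuadData K S 𝒮 c,
      ¬ (Submodule.span K (Set.range q.z)) ^ c ≤ q.A.restrictScalars K ∧
      𝒮 1 ≤ Submodule.span K (Set.range q.z) ⊔ Submodule.span K (Set.range l) ∧
      ∀ k, (∑ i, ∑ j, q.b k i j • (q.z i * q.z j)) - f k ∈
        𝒮 1 * Submodule.span K (Set.range l) := by
  classical
  set A := Ideal.ofList (List.ofFn f ++ List.ofFn l) with hA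
  set L := Submodule.span K (Set.range l) with hL
  have hdim := finrank_quot_eq_choose 𝒮 hH f l hf hl hreg
  rw [← hA] at hdim
  have hgen : ∀ x ∈ List.ofFn f ++ List.ofFn l, (∃ k, f k = x) ∨ ∃ j, l j = x := by
    intro x hx
    simpa [List.mem_ofFn] using hx
  have hhom : ∀ x ∈ List.ofFn f ++ List.ofFn l, ∃ d, x ∈ 𝒮 (d + 1) := by
    intro x hx
    rcases hgen x hx with ⟨k, rfl⟩ | ⟨j, rfl⟩
    · exact ⟨1, hf k⟩
    · exact ⟨0, hl j⟩
  have hAhom : ∀ s ∈ A, ∀ j, GradedAlgebra.proj 𝒮 j s ∈ A := fun s hs j =>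
    proj_mem_span 𝒮 (fun x hx => (hhom x hx).elim fun d hd => ⟨_, hd⟩) hs j
  have hA1 : ∀ s ∈ A, ∀ y, GradedAlgebra.proj 𝒮 1 (y * s) ∈ L := by
    intro s hs
    induction hs using Submodule.span_induction with
    | mem x hx =>
      intro y
      rcases hgen x hx with ⟨k, rfl⟩ | ⟨j, rfl⟩
      · rw [proj_mul_right_lt 𝒮 (hf k) _ one_lt_two]; exact zero_mem _
      · have h1 := proj_mul_right (d := 0) 𝒮 (hl j) y
        rw [zero_add] at h1
        have h2 := proj_mem 𝒮 0 y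
        rw [hpow 0, pow_zero, Submodule.mem_one] at h2
        obtain ⟨a, ha⟩ := h2
        rw [h1, ← ha, ← Algebra.smul_def]
        exact Submodule.smul_mem _ _ (Submodule.subset_span ⟨j, rfl⟩)
    | zero => simp
    | add x x' _ _ h h' => intro y; rw [mul_add, map_add]; exact add_mem (h y) (h' y)
    | smul a x _ h => intro y; rw [smul_eq_mul, ← mul_assoc]; exact h _
  have := finite_quot_Wd 𝒮 A 1
  let v : Basis (Fin c) K (S ⧸ Wd 𝒮 A 1) :=
    Module.finBasisOfFinrankEq K _ (by rw [hdim 1, Nat.choose_one_right])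
  choose w hw using fun j => Submodule.Quotient.mk_surjective _ (v j)
  let z : Fin c → S := fun j => GradedAlgebra.proj 𝒮 1 (w j)
  have hz : ∀ j, z j ∈ 𝒮 1 := fun j => proj_mem 𝒮 1 _
  set Z := Submodule.span K (Set.range z) with hZ
  have hspan : 𝒮 1 ≤ Z ⊔ L := by
    intro x hx
    have h1 : x - ∑ j, v.repr (Submodule.Quotient.mk x) j • w j ∈ Wd 𝒮 A 1 := by
      rw [← Submodule.Quotient.eq, ← Submodule.mkQ_apply _ (∑ j, _), map_sum]
      simp only [map_smul, Submodule.mkQ_apply, hw]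
      exact (v.sum_repr _).symm
    have h2 := hA1 _ h1 1
    rw [one_mul, proj_proj, map_sub, proj_of_mem 𝒮 hx, map_sum] at h2
    simp only [map_smul] at h2
    rw [← add_sub_cancel (∑ j, v.repr (Submodule.Quotient.mk x) j • z j) x]
    exact Submodule.add_mem_sup (Submodule.sum_mem _ fun j _ =>
      Submodule.smul_mem _ _ (Submodule.subset_span ⟨j, rfl⟩)) h2
  have hZ1 : Z ≤ 𝒮 1 := Submodule.span_le.mpr (by rintro _ ⟨j, rfl⟩; exact hz j)
  have hL1 : L ≤ 𝒮 1 := Submodule.span_le.mpr (by rintro _ ⟨j, rfl⟩; exact hl j)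
  have hb : ∀ k, ∃ b : Fin c → Fin c → K, (∑ i, ∑ j, b i j • (z i * z j)) - f k ∈ 𝒮 1 * L := by
    intro k
    have h1 : f k ∈ Z * Z ⊔ 𝒮 1 * L := by
      have h2 := hf k
      rw [hpow 2, pow_two] at h2
      refine (?_ : 𝒮 1 * 𝒮 1 ≤ _) h2
      calc 𝒮 1 * 𝒮 1 ≤ 𝒮 1 * (Z ⊔ L) := mul_le_mul' le_rfl hspan
        _ = 𝒮 1 * Z ⊔ 𝒮 1 * L := Submodule.mul_sup _ _ _
        _ ≤ (Z ⊔ L) * Z ⊔ 𝒮 1 * L := sup_le_sup_right (mul_le_mul' hspan le_rfl) _
        _ ≤ Z * Z ⊔ 𝒮 1 * L := by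
          rw [Submodule.sup_mul, sup_assoc]
          refine sup_le_sup_left (sup_le ?_ le_rfl) _
          rw [mul_comm]
          exact mul_le_mul' hZ1 le_rfl
    obtain ⟨p, hp, y, hy, hpy⟩ := Submodule.mem_sup.mp h1
    rw [hZ, Submodule.span_mul_span] at hp
    have h3 : p ∈ Submodule.span K (Set.range fun ij : Fin c × Fin c => z ij.1 * z ij.2) := by
      refine Submodule.span_mono ?_ hp
      rintro _ ⟨_, ⟨i, rfl⟩, _, ⟨j, rfl⟩, rfl⟩
      exact ⟨(i, j), rfl⟩
    obtain ⟨b, hb⟩ := (Submodule.mem_span_range_iff_exists_fun K).mp h3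
    refine ⟨fun i j => b (i, j), ?_⟩
    rw [Fintype.sum_prod_type] at hb
    rw [hb, ← hpy, sub_add_cancel_left]
    exact neg_mem hy
  choose b hb using hb
  let Lk : Fin c → List S := fun k => ((List.finRange c).erase k).map f ++ List.ofFn l
  have hperm : ∀ k, (List.ofFn f ++ List.ofFn l).Perm (Lk k ++ [f k]) := by
    intro k
    have h1 := (List.perm_cons_erase (List.mem_finRange k)).map f
    rw [← List.ofFn_eq_map, List.map_cons] at h1
    exact (h1.append_right _).trans (List.perm_append_singleton _ _).symm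
  have hAk : ∀ k, A = Ideal.ofList (Lk k) ⊔ Ideal.span {f k} := by
    intro k
    rw [← Ideal.ofList_singleton, ← Ideal.ofList_append]
    exact congrArg Ideal.span (Set.ext fun x => (hperm k).mem_iff)
  have hLk : ∀ k, ∀ y ∈ 𝒮 1 * L, y ∈ Ideal.ofList (Lk k) := by
    intro k y hy
    refine Submodule.mul_induction_on hy (fun p _ x hx => Ideal.mul_mem_left _ _ ?_)
      (fun x y hx hy => add_mem hx hy)
    refine (?_ : L ≤ (Ideal.ofList (Lk k)).restrictScalars K) hx
    rw [hL, Submodule.span_le]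
    rintro _ ⟨j, rfl⟩
    exact Ideal.subset_span (List.mem_append_right _ (List.mem_ofFn.mpr ⟨j, rfl⟩))
  have hle : ∀ k, Ideal.ofList (Lk k) ≤ A := fun k => by rw [hAk k]; exact le_sup_left
  have hLA : L ≤ A.restrictScalars K := by
    rw [hL, Submodule.span_le]
    rintro _ ⟨j, rfl⟩
    exact Ideal.subset_span (List.mem_append_right _ (List.mem_ofFn.mpr ⟨j, rfl⟩))
  refine ⟨{ z := z, b := b, A := A, Ak := fun k => Ideal.ofList (Lk k), z_mem := hz, A_hom := hAhom
            g_mem_Ak := fun k k' hk => ?_, Ak_le := hle, g_mem := fun k => ?_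
            A_le := fun k s hs => ?_, reg := fun k s hs => ?_
            fin := fun j => finite_quot_Wd 𝒮 A j, dim := hdim }, fun hc => ?_, hspan, hb⟩
  · rw [← sub_add_cancel (∑ i, ∑ j, b k' i j • (z i * z j)) (f k')]
    refine add_mem (hLk k _ (hb k')) (Ideal.subset_span (List.mem_append_left _ ?_))
    exact List.mem_map_of_mem ((List.mem_erase_of_ne hk).mpr (List.mem_finRange k'))
  · rw [← sub_add_cancel (∑ i, ∑ j, b k i j • (z i * z j)) (f k)]
    refine add_mem (hle k (hLk k _ (hb k))) ?_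
    exact Ideal.subset_span (List.mem_append_left _ (List.mem_ofFn.mpr ⟨k, rfl⟩))
  · rw [hAk k] at hs
    obtain ⟨β, hβ, y, hy, rfl⟩ := Submodule.mem_sup.mp hs
    obtain ⟨t, rfl⟩ := Ideal.mem_span_singleton'.mp hy
    refine ⟨t, ?_⟩
    rw [show β + t * f k - (∑ i, ∑ j, b k i j • (z i * z j)) * t =
      β - ((∑ i, ∑ j, b k i j • (z i * z j)) - f k) * t by ring]
    exact sub_mem hβ (Ideal.mul_mem_right _ _ (hLk k _ (hb k)))
  · refine regular_of_append (isWeaklyRegular_perm 𝒮 hreg (hperm k) hhom) s ?_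
    rw [show f k * s = (∑ i, ∑ j, b k i j • (z i * z j)) * s -
      ((∑ i, ∑ j, b k i j • (z i * z j)) - f k) * s by ring]
    exact sub_mem hs (Ideal.mul_mem_right _ _ (hLk k _ (hb k)))
  · have h1 : ∀ d, 𝒮 1 ^ d ≤ Z ^ d ⊔ A.restrictScalars K := by
      intro d
      induction d with
      | zero => rw [pow_zero, pow_zero]; exact le_sup_left
      | succ d ih =>
        rw [pow_succ, Submodule.mul_le]
        intro p hp x hx
        obtain ⟨p₁, hp₁, a, ha, rfl⟩ := Submodule.mem_sup.mp (ih hp)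
        obtain ⟨x₁, hx₁, x₂, hx₂, rfl⟩ := Submodule.mem_sup.mp (hspan hx)
        rw [add_mul, mul_add, add_assoc, pow_succ]
        exact Submodule.add_mem_sup (Submodule.mul_mem_mul hp₁ hx₁)
          (add_mem (A.mul_mem_left _ (hLA hx₂)) (A.mul_mem_right _ ha))
    have h2 : Wd 𝒮 A c = ⊤ := by
      rw [eq_top_iff]
      intro s _
      have h3 := proj_mem 𝒮 c s
      rw [hpow c] at h3
      exact (sup_le hc le_rfl : Z ^ c ⊔ A.restrictScalars K ≤ _) (h1 c h3)
    have h3 := hdim c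
    rw [h2, Nat.choose_self, finrank_zero_of_subsingleton] at h3
    exact zero_ne_one h3

end Graded

open MvPolynomial

attribute [local instance] MvPolynomial.gradedAlgebra

theorem hilbert_series_poly (K : Type*) [Field K] (n : ℕ) :
    (PowerSeries.mk fun j => (finrank K (homogeneousSubmodule (Fin n) K j) : ℤ)) *
      (1 - PowerSeries.X) ^ n = 1 := by
  simp only [finrank_homogeneousSubmodule, card_monos]
  cases n with
  | zero =>
    ext j
    cases j with
    | zero => simp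
    | succ j => simp [PowerSeries.coeff_one]
  | succ n =>
    refine Eq.trans ?_ (PowerSeries.mk_add_choose_mul_one_sub_pow_eq_one ℤ n)
    congr 2
    ext j
    rw [show n + 1 + j - 1 = n + j by omega, Nat.choose_symm_add]

theorem exists_tower' {K : Type u} {S : Type*} [Field K] [CommRing S] [Algebra K S]
    {𝒮 : ℕ → Submodule K S} [GradedAlgebra 𝒮] {c : ℕ} (q : QuadData K S 𝒮 c) :
    ∃ (E : DivExt K) (e lam : ℕ → Fin c → E.D), TowerProp E.κ q.b c e lam := by
  cases c with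
  | zero => exact ⟨{ F := K, D := K }, 0, 0, ⟨by simp, by simp, by simp, by simp⟩⟩
  | succ k => exact exists_tower q _

open Classical in
theorem exists_monomials_of_infinite {K : Type u} [Field K] [Infinite K] {c r : ℕ}
    (f : Fin c → MvPolynomial (Fin (c + r)) K) (hf : ∀ k, (f k).IsHomogeneous 2)
    (hreg : IsWeaklyRegular (MvPolynomial (Fin (c + r)) K) (List.ofFn f))
    (I : Ideal (MvPolynomial (Fin (c + r)) K)) (hI : ∀ k, f k ∈ I) :
    ∃ 𝓜 : Set (Fin (c + r) →₀ ℕ), IsUpperSet 𝓜 ∧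
      (∀ d, ((monos (c + r) d).filter (· ∈ 𝓜)).card = finrank K (idealDeg I d)) ∧
      ∀ i : Fin c, Finsupp.single (Fin.castAdd r i) 2 ∈ 𝓜 := by
  obtain ⟨l, hl, hreg'⟩ := exists_linear_extension _ hreg r (by simp)
  obtain ⟨q, h1, h2, h3⟩ := exists_quadData (homogeneousSubmodule (Fin (c + r)) K)
    (fun d => (homogeneousSubmodule_one_pow _ d).symm) (hilbert_series_poly K _) f l hf hl hreg'
  obtain ⟨E, e, lam, h⟩ := exists_tower' q
  let : Algebra K E.D := Algebra.compHom E.D (algebraMap K E.F)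
  refine exists_monomials_of_tower (D := E.D) q.z l h q.A q.z_mem hl q.g_mem h1 h2 I fun k => ?_
  rw [← add_sub_cancel (f k) (∑ i, ∑ j, q.b k i j • (q.z i * q.z j))]
  exact Submodule.add_mem_sup (Submodule.mem_inf.mpr ⟨hf k, hI k⟩) (h3 k)

end Vale.Agent.P200
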