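import Mathlib
import Vale.Agent.P200.Data

/-! Extension of the ground field and the monomial ideal. -/

namespace Vale.Agent.P200

open Module RingTheory.Sequence MvPolynomial TensorProduct

universe u

section BC

variable {K L : Type*} [Field K] [Field L] [Algebra K L] {n : ℕ}

attribute [local instance] MvPolynomial.algebraMvPolynomial in
theorem isWeaklyRegular_map {rs : List (MvPolynomial (Fin n) K)}
    (h : IsWeaklyRegular (MvPolynomial (Fin n) K) rs) :
    IsWeaklyRegular (MvPolynomial (Fin n) L) (rs.map (map (algebraMap K L))) := by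
  have : Module.Flat (MvPolynomial (Fin n) K) (MvPolynomial (Fin n) L) :=
    Module.Flat.isBaseChange (R := K) (M := L) (S := MvPolynomial (Fin n) K)
      (N := MvPolynomial (Fin n) L)
      (Algebra.IsPushout.symm (inferInstance : Algebra.IsPushout K L (MvPolynomial (Fin n) K)
        (MvPolynomial (Fin n) L))).out
  exact h.of_flat

theorem homogeneousComponent_map' (d : ℕ) (p : MvPolynomial (Fin n) K) :
    homogeneousComponent d (map (algebraMap K L) p) =
      map (algebraMap K L) (homogeneousComponent d p) := by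
  ext m
  rw [coeff_homogeneousComponent, coeff_map, coeff_map, coeff_homogeneousComponent]
  split_ifs <;> simp

theorem finrank_idealDeg_map (I : Ideal (MvPolynomial (Fin n) K))
    (hI : ∀ p ∈ I, ∀ d, homogeneousComponent d p ∈ I) (d : ℕ) :
    finrank L (idealDeg (I.map (map (algebraMap K L))) d) = finrank K (idealDeg I d) := by
  let e := (algebraTensorAlgEquiv (σ := Fin n) K L).toLinearEquiv
  have he : ∀ (a : L) p, e (a ⊗ₜ[K] p) = a • map (algebraMap K L) p :=
    fun a p => algebraTensorAlgEquiv_tmul K L a p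
  have h1 : idealDeg (I.map (map (algebraMap K L))) d =
      ((idealDeg I d).baseChange L).map e.toLinearMap := by
    refine le_antisymm ?_ ?_
    · have key : ∀ x ∈ I.map (map (algebraMap K L)), ∀ y, homogeneousComponent d (y * x) ∈
          ((idealDeg I d).baseChange L).map e.toLinearMap := by
        intro x hx
        induction hx using Submodule.span_induction with
        | mem x hx =>
          obtain ⟨p, hp, rfl⟩ := hx
          intro y
          induction y using MvPolynomial.induction_on' with
          | monomial m a =>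
            refine ⟨a ⊗ₜ[K] homogeneousComponent d (monomial m 1 * p),
              Submodule.tmul_mem_baseChange_of_mem _ (Submodule.mem_inf.mpr
                ⟨homogeneousComponent_mem d _, hI _ (I.mul_mem_left _ hp) d⟩), ?_⟩
            rw [LinearEquiv.coe_coe, he, ← homogeneousComponent_map', ← map_smul, map_mul,
              map_monomial, map_one, ← smul_mul_assoc, smul_monomial, smul_eq_mul, mul_one]
          | add y y' h h' => rw [add_mul, map_add]; exact add_mem h h'
        | zero => simp
        | add x x' _ _ h h' => intro y; rw [mul_add, map_add]; exact add_mem (h y) (h' y)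
        | smul a x _ h => intro y; rw [smul_eq_mul, ← mul_assoc]; exact h _
      intro x hx
      have := key x hx.2 1
      rwa [one_mul, homogeneousComponent_of_mem hx.1, if_pos rfl] at this
    · rw [Submodule.baseChange_eq_span, Submodule.map_span, Submodule.span_le]
      rintro _ ⟨_, ⟨p, hp, rfl⟩, rfl⟩
      have : e.toLinearMap ((TensorProduct.mk K L _ 1) p) = map (algebraMap K L) p := by
        rw [LinearEquiv.coe_coe, TensorProduct.mk_apply, he, one_smul]
      rw [this]
      exact Submodule.mem_inf.mpr ⟨IsHomogeneous.map hp.1 _, Ideal.mem_map_of_mem _ hp.2⟩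
  rw [h1, LinearEquiv.finrank_map_eq, (finrank_submodule_baseChange _).2]

end BC

open Classical in
theorem finrank_idealDeg_monomial (K : Type*) [Field K] {n : ℕ} (𝓜 : Set (Fin n →₀ ℕ))
    (h : IsUpperSet 𝓜) (d : ℕ) :
    finrank K (idealDeg (Ideal.span ((fun m => monomial m (1 : K)) '' 𝓜)) d) =
      ((monos n d).filter (· ∈ 𝓜)).card := by
  rw [← finrank_restrictSupport (F := K)]
  have : idealDeg (Ideal.span ((fun m => monomial m (1 : K)) '' 𝓜)) d =
      restrictSupport K (((monos n d).filter (· ∈ 𝓜) : Finset (Fin n →₀ ℕ)) : Set (Fin n →₀ ℕ)) := by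
    ext p
    rw [Submodule.mem_inf, homogeneousSubmodule_eq_restrict, Submodule.restrictScalars_mem,
      mem_ideal_span_monomial_image, mem_restrictSupport_iff, mem_restrictSupport_iff]
    constructor
    · rintro ⟨h1, h2⟩ m hm
      obtain ⟨m', hm', hle⟩ := h2 m hm
      exact Finset.mem_coe.mpr (Finset.mem_filter.mpr ⟨h1 hm, h hle hm'⟩)
    · intro h1
      exact ⟨fun m hm => (Finset.mem_filter.mp (h1 hm)).1,
        fun m hm => ⟨m, (Finset.mem_filter.mp (h1 hm)).2, le_rfl⟩⟩
  rw [this]

theorem isWeaklyRegular_ofFn {S : Type*} [CommRing S] {c : ℕ} (f : Fin c → S)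
    (hreg : ∀ i g, f i * g ∈ Ideal.span (f '' {j | j < i}) → g ∈ Ideal.span (f '' {j | j < i})) :
    IsWeaklyRegular S (List.ofFn f) := by
  refine ⟨fun i hi => ?_⟩
  have hi' : i < c := by simpa using hi
  have h1 : Ideal.ofList ((List.ofFn f).take i) = Ideal.span (f '' {j | j < ⟨i, hi'⟩}) := by
    refine congrArg Ideal.span (Set.ext fun x => ?_)
    simp only [List.mem_take_iff_getElem, List.getElem_ofFn, List.length_ofFn, Set.mem_ofPred_eq,
      Set.mem_image]
    constructor
    · rintro ⟨j, hj, rfl⟩
      exact ⟨⟨j, by omega⟩, by rw [Fin.lt_def]; simp only; omega, rfl⟩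
    · rintro ⟨j, hj, rfl⟩
      exact ⟨j, by rw [Fin.lt_def] at hj; simp only at hj; omega, rfl⟩
  rw [isSMulRegular_quotient_iff_mem_of_smul_mem, smul_eq_mul, Ideal.mul_top, h1,
    List.getElem_ofFn]
  exact hreg _

theorem egh_quadrics (K : Type u) [Field K] (n c : ℕ) (hc : c ≤ n)
    (f : Fin c → MvPolynomial (Fin n) K) (hf : ∀ i, (f i).IsHomogeneous 2)
    (hreg : ∀ i g, f i * g ∈ Ideal.span (f '' {j | j < i}) → g ∈ Ideal.span (f '' {j | j < i}))
    (I : Ideal (MvPolynomial (Fin n) K)) (hI : ∀ p ∈ I, ∀ d, homogeneousComponent d p ∈ I)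
    (hfI : ∀ i, f i ∈ I) :
    ∃ 𝓜 : Set (Fin n →₀ ℕ),
      (∀ i : Fin c, X (Fin.castLE hc i) ^ 2 ∈ Ideal.span ((fun m => monomial m (1 : K)) '' 𝓜)) ∧
      ∀ d, finrank K (idealDeg I d) =
        finrank K (idealDeg (Ideal.span ((fun m => monomial m (1 : K)) '' 𝓜)) d) := by
  obtain ⟨r, rfl⟩ := Nat.exists_eq_add_of_le hc
  let L := AlgebraicClosure K
  obtain ⟨𝓜, h1, h2, h3⟩ := exists_monomials_of_infinite (K := L)
    (fun k => map (algebraMap K L) (f k)) (fun k => (hf k).map _)
    (by
      have := isWeaklyRegular_map (L := L) (isWeaklyRegular_ofFn f hreg)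
      rwa [List.map_ofFn] at this)
    (I.map (map (algebraMap K L))) (fun k => Ideal.mem_map_of_mem _ (hfI k))
  refine ⟨𝓜, fun i => ?_, fun d => ?_⟩
  · rw [X_pow_eq_monomial]
    exact Ideal.subset_span ⟨_, h3 i, rfl⟩
  · rw [finrank_idealDeg_monomial K 𝓜 h1, h2, finrank_idealDeg_map I hI]

end Vale.Agent.P200
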